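import Vale.Agent.P032.Six.Gap

/-!
# P032: the points with at least four colours form a totally disconnected set

`Mx.td_four` : for every four colours the set of points having all of them is totally
disconnected.
-/

open Set Filter Topology Metric

noncomputable section

namespace Vale.Agent.P032.Six

theorem ess_cis_add (a b : ℝ) : cis (a + b) = cis a * cis b := by
  unfold cis
  rw [← Complex.exp_add]
  congr 1
  push_cast
  ring

theorem ess_cis_re (t : ℝ) : (cis t).re = Real.cos t := by
  unfold cis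
  exact Complex.exp_ofReal_mul_I_re t

theorem ess_cis_im (t : ℝ) : (cis t).im = Real.sin t := by
  unfold cis
  exact Complex.exp_ofReal_mul_I_im t

/-- chord length -/
theorem ess_chord (s t : ℝ) : ‖cis s - cis t‖ ^ 2 = 2 - 2 * Real.cos (s - t) := by
  rw [Complex.sq_norm, Complex.normSq_apply]
  simp only [Complex.sub_re, Complex.sub_im, ess_cis_re, ess_cis_im]
  rw [Real.cos_sub]
  nlinarith [Real.sin_sq_add_cos_sq s, Real.sin_sq_add_cos_sq t]

/-- the half circle of radius `R` about `c` on the side away from `c'` -/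
theorem ess_half {w R : ℝ} (hw : 0 < w) (hR : 0 < R) (hwR : 1 < w ^ 2 + R ^ 2) {t : ℝ}
    (ht : 0 ≤ Real.cos t) : 1 < ‖(w : ℂ) + R * cis t‖ := by
  have h1 : ‖(w : ℂ) + R * cis t‖ ^ 2 = w ^ 2 + 2 * w * R * Real.cos t + R ^ 2 := by
    rw [Complex.sq_norm, Complex.normSq_apply]
    simp only [Complex.add_re, Complex.add_im, Complex.mul_re, Complex.mul_im, Complex.ofReal_re,
      Complex.ofReal_im, ess_cis_re, ess_cis_im]
    nlinarith [Real.sin_sq_add_cos_sq t]
  have h2 : 1 < ‖(w : ℂ) + R * cis t‖ ^ 2 := by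
    rw [h1]
    have : 0 ≤ 2 * w * R * Real.cos t := by positivity
    linarith
  by_contra hcon
  push Not at hcon
  have := norm_nonneg ((w : ℂ) + R * cis t)
  nlinarith

variable {U : Fin 6 → Set ℂ}

/-- **[4]** the points with four given colours form a totally disconnected set -/
theorem Mx.td_four (h : Mx U) {s : Finset (Fin 6)} (hs : s.card = 4) :
    IsTotallyDisconnected {x | ∀ i ∈ s, i ∈ Pal U x} := by
  classical
  intro C hCs hC
  by_contra hcon
  rw [Set.not_subsingleton_iff] at hcon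
  obtain ⟨c, hc, c', hc', hne⟩ := hcon
  -- the two other colours
  have hsc : sᶜ.card = 2 := by rw [Finset.card_compl, hs]; rfl
  obtain ⟨e, f, hef, hsef⟩ := Finset.card_eq_two.1 hsc
  have hmem : ∀ i, i ∉ s → i = e ∨ i = f := by
    intro i hi
    have : i ∈ sᶜ := Finset.mem_compl.2 hi
    rw [hsef] at this
    simpa using this
  set w : ℝ := ‖c - c'‖ with hwdef
  have hw : 0 < w := norm_pos_iff.2 (sub_ne_zero.2 hne)
  set η : ℝ := min (w ^ 2 / 2) (1 / 5) with hη
  have hη0 : 0 < η := lt_min (by positivity) (by norm_num)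
  have hη1 : η ≤ 1 / 5 := min_le_right _ _
  have hη2 : η ≤ w ^ 2 / 2 := min_le_left _ _
  set R : ℝ := 1 - η with hRdef
  have hR : 4 / 5 ≤ R := by linarith
  have hR1 : R < 1 := by linarith
  have hwR : 1 < w ^ 2 + R ^ 2 := by nlinarith
  set u : ℂ := (c - c') / w with hu
  have hwC : (w : ℂ) ≠ 0 := by exact_mod_cast hw.ne'
  have hnu : ‖u‖ = 1 := by
    rw [hu, norm_div, Complex.norm_real, Real.norm_of_nonneg hw.le]
    exact div_self hw.ne'
  have hcc : c - c' = w * u := by rw [hu]; field_simp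
  let P : ℝ → ℂ := fun t => c + R * u * cis t
  have hPc : Continuous P := continuous_const.add (continuous_const.mul continuous_cis)
  have hPd : ∀ t, dist c (P t) < 1 := by
    intro t
    rw [dist_comm, dist_eq_norm]
    show ‖c + R * u * cis t - c‖ < 1
    rw [add_sub_cancel_left, norm_mul, norm_mul, norm_cis, hnu, Complex.norm_real,
      Real.norm_of_nonneg (by linarith)]
    linarith
  have hPd' : ∀ t, 0 ≤ Real.cos t → 1 < dist c' (P t) := by
    intro t ht
    rw [dist_comm, dist_eq_norm]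
    have h1 : P t - c' = u * ((w : ℂ) + R * cis t) := by
      show c + R * u * cis t - c' = _
      linear_combination hcc
    rw [h1, norm_mul, hnu, one_mul]
    exact ess_half hw (by linarith) hwR ht
  -- only two colours on the half circle
  have hpal : ∀ t, 0 ≤ Real.cos t → ∀ i ∈ Pal U (P t), i = e ∨ i = f := by
    intro t ht i hi
    apply hmem
    intro his
    exact h.wlemma hC (fun q hq => hCs hq i his) hc hc' (hPd t) (hPd' t ht) hi
  -- the rotation by a unit chord
  set α : ℝ := 2 * Real.arcsin (1 / (2 * R)) with hα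
  have hx0 : 0 ≤ 1 / (2 * R) := by positivity
  have hx1 : 1 / (2 * R) ≤ 5 / 8 := by
    rw [div_le_iff₀ (by linarith)]
    linarith
  have hsinα : Real.sin (α / 2) = 1 / (2 * R) := by
    rw [hα, mul_div_cancel_left₀ _ (two_ne_zero)]
    exact Real.sin_arcsin (by linarith) (by linarith)
  have hcosα : Real.cos α = 1 - 2 * (1 / (2 * R)) ^ 2 := by
    have h1 : α = 2 * (α / 2) := by ring
    rw [h1, Real.cos_two_mul, ← hsinα]
    nlinarith [Real.sin_sq_add_cos_sq (α / 2)]
  have hα0 : 0 ≤ α := by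
    have := Real.arcsin_nonneg.2 hx0
    rw [hα]; linarith
  have hα1 : α ≤ Real.pi / 2 := by
    have h1 : Real.arcsin (1 / (2 * R)) ≤ Real.pi / 4 := by
      rw [Real.arcsin_le_iff_le_sin' ⟨by linarith [Real.pi_pos], by linarith [Real.pi_pos]⟩,
        Real.sin_pi_div_four]
      have h2 : (5 / 4 : ℝ) ≤ Real.sqrt 2 := by
        rw [Real.le_sqrt (by norm_num) (by norm_num)]
        norm_num
      linarith
    rw [hα]; linarith
  have hchord : ∀ s t : ℝ, Real.cos (s - t) = Real.cos α → dist (P s) (P t) = 1 := by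
    intro s t hst
    have h1 : P s - P t = R * u * (cis s - cis t) := by
      show c + R * u * cis s - (c + R * u * cis t) = _
      ring
    have h2 : dist (P s) (P t) ^ 2 = 1 := by
      rw [dist_eq_norm, h1, norm_mul, norm_mul, hnu, Complex.norm_real,
        Real.norm_of_nonneg (by linarith), mul_one, mul_pow, ess_chord, hst, hcosα]
      field_simp
      ring
    have h3 := dist_nonneg (x := P s) (y := P t)
    nlinarith
  have hnb : ∀ t ∈ Icc (-(Real.pi / 2)) (Real.pi / 2), ∃ t' ∈ Icc (-(Real.pi / 2)) (Real.pi / 2),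
      dist (P t) (P t') = 1 := by
    intro t ht
    rcases le_total 0 t with h0 | h0
    · refine ⟨t - α, ⟨by linarith [ht.1], by linarith [ht.2]⟩, hchord _ _ ?_⟩
      rw [sub_sub_cancel]
    · refine ⟨t + α, ⟨by linarith [ht.1], by linarith [ht.2]⟩, hchord _ _ ?_⟩
      rw [sub_add_cancel_left, Real.cos_neg]
  have hcos : ∀ t ∈ Icc (-(Real.pi / 2)) (Real.pi / 2), 0 ≤ Real.cos t := fun t ht =>
    Real.cos_nonneg_of_mem_Icc ht
  -- off `XX`
  have hoff : ∀ t ∈ Icc (-(Real.pi / 2)) (Real.pi / 2), P t ∈ U e ∨ P t ∈ U f := by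
    intro t ht
    by_cases hX : P t ∈ XX U
    · exfalso
      obtain ⟨t', ht', hd⟩ := hnb t ht
      have hsub : Pal U (P t) ⊆ {e, f} := fun i hi => by
        simpa using hpal t (hcos t ht) i hi
      have h2 : (Pal U (P t)).ncard ≤ 2 :=
        (Set.ncard_le_ncard hsub (Set.toFinite _)).trans (Set.ncard_insert_le _ _ |>.trans
          (by rw [Set.ncard_singleton]))
      refine h.not_sub hX (by rw [dist_comm]; exact hd) (by omega) fun i hi => ?_
      obtain ⟨j, hj, hje⟩ := h.two hX e
      obtain ⟨j', hj', hjf⟩ := h.two hX f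
      have hf' : f ∈ Pal U (P t) := by
        rcases hpal t (hcos t ht) j hj with rfl | rfl
        · exact absurd rfl hje
        · exact hj
      have he' : e ∈ Pal U (P t) := by
        rcases hpal t (hcos t ht) j' hj' with rfl | rfl
        · exact hj'
        · exact absurd rfl hjf
      rcases hpal t' (hcos t' ht') i hi with rfl | rfl
      · exact he'
      · exact hf'
    · have : ∃ i, P t ∈ U i := by simpa [XX] using hX
      obtain ⟨i, hi⟩ := this
      rcases hpal t (hcos t ht) i (subset_closure hi) with rfl | rfl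
      · exact Or.inl hi
      · exact Or.inr hi
  -- not both
  have hnot : ∀ t ∈ Icc (-(Real.pi / 2)) (Real.pi / 2), ¬ (P t ∈ U e ∧ P t ∈ U f) := by
    rintro t ht ⟨h1, h2⟩
    obtain ⟨t', ht', hd⟩ := hnb t ht
    obtain ⟨i, hi⟩ := h.cover (P t')
    rcases hpal t' (hcos t' ht') i hi with rfl | rfl
    · exact h.notMem' h1 hd hi
    · exact h.notMem' h2 hd hi
  have hI : (0 : ℝ) ∈ Icc (-(Real.pi / 2)) (Real.pi / 2) :=
    ⟨by linarith [Real.pi_pos], by linarith [Real.pi_pos]⟩
  obtain ⟨t', ht', hd⟩ := hnb 0 hI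
  have hconn : IsPreconnected (Icc (-(Real.pi / 2)) (Real.pi / 2)) := isPreconnected_Icc
  have hne2 : (Icc (-(Real.pi / 2)) (Real.pi / 2) ∩ P ⁻¹' U e).Nonempty ∧
      (Icc (-(Real.pi / 2)) (Real.pi / 2) ∩ P ⁻¹' U f).Nonempty := by
    rcases hoff 0 hI with h1 | h1 <;> rcases hoff t' ht' with h2 | h2
    · exact absurd (subset_closure h2) (h.notMem' h1 hd)
    · exact ⟨⟨0, hI, h1⟩, ⟨t', ht', h2⟩⟩
    · exact ⟨⟨t', ht', h2⟩, ⟨0, hI, h1⟩⟩
    · exact absurd (subset_closure h2) (h.notMem' h1 hd)
  obtain ⟨t, htI, hte, htf⟩ := hconn (P ⁻¹' U e) (P ⁻¹' U f) ((h.isOpen e).preimage hPc)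
    ((h.isOpen f).preimage hPc) (fun t ht => hoff t ht) hne2.1 hne2.2
  exact hnot t htI ⟨hte, htf⟩

end Vale.Agent.P032.Six
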