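import Mathlib

/-!
# Shrinking a finite closed cover near a compact totally disconnected set

`exists_reduced` : if `Z` is compact and totally disconnected and for every `z ∈ Z` the sets `F i`,
`i ∈ g z`, cover a neighbourhood of `z`, there are closed sets `F' i ⊆ F i` with the same union such
that the palette of `F'` at every point of `Z` is contained in some `g z`.
-/

open Set Filter Topology Metric

noncomputable section

namespace Vale.Agent.P032.Six

theorem ess_lab {T : Set ℂ} (hT : IsCompact T) (hd : IsTotallyDisconnected T) {ε : ℝ}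
    (hε : 0 < ε) : ∃ lab : T → ℂ, (∀ x : T, ∀ᶠ y in 𝓝 x, lab y = lab x) ∧
      ∀ x : T, dist (x : ℂ) (lab x) < ε := by
  classical
  have : CompactSpace T := isCompact_iff_compactSpace.1 hT
  have : TotallyDisconnectedSpace T := totallyDisconnectedSpace_subtype_iff.2 hd
  obtain ⟨lab, h1, W, hW, hWs, hall⟩ := (isCompact_univ (X := T)).induction_on
    (p := fun Z => ∃ lab : T → ℂ, (∀ x : T, ∀ᶠ y in 𝓝 x, lab y = lab x) ∧
      ∃ W : Set T, IsClopen W ∧ Z ⊆ W ∧ ∀ x ∈ W, dist (x : ℂ) (lab x) < ε)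
    ⟨fun _ => 0, fun _ => Filter.Eventually.of_forall fun _ => rfl, ∅, isClopen_empty,
      Subset.rfl, by simp⟩
    (by
      rintro s t hst ⟨lab, hl, W, hW, hWs, hall⟩
      exact ⟨lab, hl, W, hW, hst.trans hWs, hall⟩)
    (by
      rintro s t ⟨lab, hl, W, hW, hWs, hall⟩ ⟨lab', hl', W', hW', hWs', hall'⟩
      refine ⟨fun x => if x ∈ W then lab x else lab' x, ?_, W ∪ W',
        hW.union hW', union_subset_union hWs hWs', ?_⟩
      · intro x
        by_cases hx : x ∈ W
        · filter_upwards [hl x, hW.isOpen.mem_nhds hx] with y hy hyW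
          rw [if_pos hyW, if_pos hx, hy]
        · filter_upwards [hl' x, hW.compl.isOpen.mem_nhds hx] with y hy hyW
          rw [if_neg hyW, if_neg hx, hy]
      · intro x hx
        by_cases hxW : x ∈ W
        · show dist (x : ℂ) (if x ∈ W then lab x else lab' x) < ε
          rw [if_pos hxW]; exact hall x hxW
        · show dist (x : ℂ) (if x ∈ W then lab x else lab' x) < ε
          rw [if_neg hxW]; exact hall' x (hx.resolve_left hxW))
    (by
      intro x _
      obtain ⟨V, hV, hxV, hVs⟩ := compact_exists_isClopen_in_isOpen (x := x)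
        (U := Subtype.val ⁻¹' Metric.ball (x : ℂ) ε)
        (Metric.isOpen_ball.preimage continuous_subtype_val) (Metric.mem_ball_self hε)
      exact ⟨V, mem_nhdsWithin_of_mem_nhds (hV.isOpen.mem_nhds hxV), fun _ => x,
        fun y => Filter.Eventually.of_forall fun _ => rfl, V, hV, Subset.rfl, fun y hy => hVs hy⟩)
  exact ⟨lab, h1, fun x => hall x (hWs (mem_univ _))⟩

theorem ess_td_union {A B : Set ℂ} (hA : IsClosed A) (hB : IsCompact B)
    (hAd : IsTotallyDisconnected A) (hBd : IsTotallyDisconnected B) :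
    IsTotallyDisconnected (A ∪ B) := by
  intro t ht htp
  by_cases htA : t ⊆ A
  · exact hAd t htA htp
  obtain ⟨x, hxt, hxA⟩ := not_subset.1 htA
  have hxB : x ∈ B := (ht hxt).resolve_left hxA
  have : CompactSpace B := isCompact_iff_compactSpace.1 hB
  have : TotallyDisconnectedSpace B := totallyDisconnectedSpace_subtype_iff.2 hBd
  obtain ⟨V, hV, hxV, hVs⟩ := compact_exists_isClopen_in_isOpen (x := (⟨x, hxB⟩ : B))
    (U := Subtype.val ⁻¹' Aᶜ) (hA.isOpen_compl.preimage continuous_subtype_val) hxA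
  obtain ⟨O, hO, hOV⟩ := isOpen_induced_iff.1 hV.isOpen
  have hV' : IsClosed (Subtype.val '' V : Set ℂ) :=
    (hV.isClosed.isCompact.image continuous_subtype_val).isClosed
  have hmem : ∀ z, z ∉ A → z ∈ B → z ∈ O → z ∈ (Subtype.val '' V : Set ℂ) := by
    intro z _ hzB hzO
    refine ⟨⟨z, hzB⟩, ?_, rfl⟩
    rw [← hOV]; exact hzO
  have hmem' : ∀ z ∈ (Subtype.val '' V : Set ℂ), z ∈ B ∧ z ∉ A ∧ z ∈ O := by
    rintro _ ⟨z, hz, rfl⟩
    refine ⟨z.2, hVs hz, ?_⟩
    rw [← hOV] at hz; exact hz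
  have hsub : t ⊆ (Subtype.val '' V : Set ℂ) := by
    by_contra hcon
    obtain ⟨y, hyt, hyV⟩ := not_subset.1 hcon
    obtain ⟨z, hzt, ⟨hzA, hzO⟩, hzV⟩ := htp (Aᶜ ∩ O) (Subtype.val '' V : Set ℂ)ᶜ
      (hA.isOpen_compl.inter hO) hV'.isOpen_compl (by
        intro z hz
        by_cases hzV : z ∈ (Subtype.val '' V : Set ℂ)
        · exact Or.inl ⟨(hmem' z hzV).2.1, (hmem' z hzV).2.2⟩
        · exact Or.inr hzV)
      ⟨x, hxt, hxA, by
        have : x ∈ (Subtype.val '' V : Set ℂ) := ⟨⟨x, hxB⟩, hxV, rfl⟩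
        exact (hmem' x this).2.2⟩ ⟨y, hyt, hyV⟩
    exact hzV (hmem z hzA ((ht hzt).resolve_left hzA) hzO)
  exact hBd t (fun z hz => (hmem' z (hsub hz)).1) htp

theorem ess_td_biUnion {α : Type*} (s : Finset α) (A : α → Set ℂ)
    (hA : ∀ a ∈ s, IsCompact (A a)) (hAd : ∀ a ∈ s, IsTotallyDisconnected (A a)) :
    IsCompact (⋃ a ∈ s, A a) ∧ IsTotallyDisconnected (⋃ a ∈ s, A a) := by
  classical
  induction s using Finset.induction_on with
  | empty =>
    simp only [Finset.notMem_empty, iUnion_of_empty, iUnion_empty, finite_empty,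
      Finite.isCompact, isTotallyDisconnected_empty, and_self]
  | insert a s ha ih =>
    rw [Finset.set_biUnion_insert]
    have ih' := ih (fun b hb => hA b (Finset.mem_insert_of_mem hb))
      (fun b hb => hAd b (Finset.mem_insert_of_mem hb))
    have h1 := hA a (Finset.mem_insert_self _ _)
    exact ⟨h1.union ih'.1, ess_td_union h1.isClosed ih'.1
      (hAd a (Finset.mem_insert_self _ _)) ih'.2⟩

/-- **Shrinking a closed cover near a compact totally disconnected set.** -/
theorem exists_reduced {ι : Type*} {F : ι → Set ℂ} (hF : ∀ i, IsClosed (F i)) {Z : Set ℂ}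
    (hZc : IsCompact Z) (hZd : IsTotallyDisconnected Z) (g : ℂ → Set ι)
    (hg : ∀ z ∈ Z, ∀ᶠ w in 𝓝 z, ∃ i ∈ g z, w ∈ F i) {ρ : ℝ} (hρ : 0 < ρ) :
    ∃ F' : ι → Set ℂ, (∀ i, IsClosed (F' i)) ∧ (∀ i, F' i ⊆ F i) ∧
      (∀ x, (∃ i, x ∈ F i) → ∃ i, x ∈ F' i) ∧
      ∃ δ > 0, ∀ x, (∀ z ∈ Z, δ ≤ dist x z) ∧ (∀ i, x ∈ F i → x ∈ F' i) ∨
        (∃ z ∈ Z, dist x z < δ) ∧ ∃ z ∈ Z, dist x z < ρ ∧ ∀ i, x ∈ F' i → i ∈ g z := by
  classical
  -- uniform radius
  obtain ⟨δ₀, hδ₀, hleb⟩ := lebesgue_number_lemma_of_metric (s := Z)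
    (c := fun z : Z => interior {w | ∃ i ∈ g z, w ∈ F i} ∩ ball (z : ℂ) (ρ / 2)) hZc
    (fun z => isOpen_interior.inter isOpen_ball) (fun z hz => mem_iUnion.2
      ⟨⟨z, hz⟩, mem_interior_iff_mem_nhds.2 (hg z hz), mem_ball_self (half_pos hρ)⟩)
  choose ζ hζ using fun z : Z => hleb z z.2
  -- labels
  obtain ⟨lab, hlab, hlabd⟩ := ess_lab hZc hZd (ε := min (δ₀ / 4) (ρ / 8))
    (lt_min (by positivity) (by positivity))
  have : CompactSpace Z := isCompact_iff_compactSpace.1 hZc
  obtain ⟨δ₁, hδ₁, hleb1⟩ := lebesgue_number_lemma_of_metric (s := (univ : Set Z))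
    (c := fun y : ℂ => {z : Z | lab z = y}) isCompact_univ
    (fun y => isOpen_iff_mem_nhds.2 fun z (hz : lab z = y) => by
      filter_upwards [hlab z] with z' hz'
      exact hz'.trans hz) (fun z _ => mem_iUnion.2 ⟨lab z, rfl⟩)
  have hloc : ∀ z z' : Z, dist (z : ℂ) z' < δ₁ → lab z = lab z' := by
    intro z z' hzz
    obtain ⟨y, hy⟩ := hleb1 z (mem_univ _)
    have h1 : lab z = y := hy (mem_ball_self hδ₁)
    have h2 : lab z' = y := hy (by rw [mem_ball, dist_comm]; exact hzz)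
    rw [h1, h2]
  -- representatives
  let rep : Z → Z := fun z => if h : ∃ z' : Z, lab z' = lab z then h.choose else z
  have hrep : ∀ z, lab (rep z) = lab z := by
    intro z
    have h : ∃ z' : Z, lab z' = lab z := ⟨z, rfl⟩
    simp only [rep, dif_pos h]
    exact h.choose_spec
  have hrep' : ∀ z z', lab z = lab z' → rep z = rep z' := by
    intro z z' hzz
    have h : ∃ z'' : Z, lab z'' = lab z := ⟨z, rfl⟩
    have h' : ∃ z'' : Z, lab z'' = lab z' := ⟨z', rfl⟩
    simp only [rep, dif_pos h, dif_pos h']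
    congr 1
    ext z''
    rw [hzz]
  have hrepd : ∀ z : Z, dist (z : ℂ) (rep z) < min (δ₀ / 2) (ρ / 4) := by
    intro z
    have h1 := hlabd z
    have h2 := hlabd (rep z)
    rw [hrep] at h2
    have h3 := dist_triangle_right (z : ℂ) (rep z) (lab z)
    have h4 := min_le_left (δ₀ / 4) (ρ / 8)
    have h5 := min_le_right (δ₀ / 4) (ρ / 8)
    rw [lt_min_iff]
    constructor <;> linarith
  let G : Z → Z := fun z => ζ (rep z)
  have hGeq : ∀ z z' : Z, dist (z : ℂ) z' < δ₁ → G z = G z' := fun z z' hzz => by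
    simp only [G]; rw [hrep' _ _ (hloc z z' hzz)]
  set δ : ℝ := min (min (δ₁ / 2) (δ₀ / 2)) (ρ / 4) with hδdef
  have hδ : 0 < δ := lt_min (lt_min (by positivity) (by positivity)) (by positivity)
  have hδ1 : δ ≤ δ₁ / 2 := (min_le_left _ _).trans (min_le_left _ _)
  have hδ0 : δ ≤ δ₀ / 2 := (min_le_left _ _).trans (min_le_right _ _)
  have hδρ : δ ≤ ρ / 4 := min_le_right _ _
  -- sufficiency
  have hsuf : ∀ (z : Z) (x : ℂ), dist x z < δ → (∃ i ∈ g (G z), x ∈ F i) ∧
      dist x (G z) < ρ := by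
    intro z x hxz
    have h1 := hrepd z
    rw [lt_min_iff] at h1
    have h2 : x ∈ ball ((rep z : Z) : ℂ) δ₀ := by
      rw [mem_ball]
      have := dist_triangle x z (rep z)
      linarith [h1.1]
    have h3 := (hζ (rep z)) h2
    have h4 : x ∈ {w | ∃ i ∈ g (ζ (rep z)), w ∈ F i} := interior_subset h3.1
    refine ⟨h4, ?_⟩
    have := h3.2
    rw [mem_ball] at this
    exact this.trans (by linarith)
  refine ⟨fun i => F i ∩ ⋂ z : {z : Z // i ∉ g (G z)}, {x | δ ≤ dist x z.1}, fun i => ?_,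
    fun i => inter_subset_left, ?_, δ, hδ, ?_⟩
  · exact (hF i).inter (isClosed_iInter fun z =>
      isClosed_le continuous_const (continuous_id.dist continuous_const))
  · rintro x ⟨i, hi⟩
    by_cases hx : ∃ z : Z, dist x z < δ
    · obtain ⟨z, hz⟩ := hx
      obtain ⟨⟨j, hj, hjF⟩, -⟩ := hsuf z x hz
      refine ⟨j, hjF, mem_iInter.2 ?_⟩
      rintro ⟨z', hz'⟩
      by_contra hcon
      have hcon' : dist x z' < δ := not_le.1 hcon
      have h1 : dist (z' : ℂ) z < δ₁ := by
        have := dist_triangle_left (z' : ℂ) z x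
        linarith
      exact hz' (by rw [hGeq z' z h1]; exact hj)
    · push Not at hx
      exact ⟨i, hi, mem_iInter.2 fun z => hx z.1⟩
  · intro x
    by_cases hx : ∃ z : Z, dist x z < δ
    · right
      obtain ⟨z, hz⟩ := hx
      refine ⟨⟨z, z.2, hz⟩, G z, (G z).2, (hsuf z x hz).2, ?_⟩
      rintro i ⟨-, hi⟩
      by_contra hcon
      have := mem_iInter.1 hi ⟨z, hcon⟩
      exact absurd hz (not_lt.2 this)
    · left
      push Not at hx
      exact ⟨fun z hz => hx ⟨z, hz⟩, fun i hi => ⟨hi, mem_iInter.2 fun z => hx z.1⟩⟩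

end Vale.Agent.P032.Six
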