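import Vale.Agent.P032.S5.No3
import Vale.Agent.P032.S5.H926.Rel
import Vale.Agent.P032.S5.H483.EssA
import Vale.Agent.P032.S5.H483.EssR

/-!
# P032: essential points

`Mx.exists_ess` : every disc of radius six contains an essential point of the family, i.e. a point
of `XX U` no neighbourhood of which is covered by three of the closures `closure (U i)`.
-/

open Set Filter Topology Metric

noncomputable section

namespace Vale.Agent.P032.Six

variable {U : Fin 6 → Set ℂ}

/-- the points of a closed ball with at least four colours -/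
theorem Mx.td_ball (h : Mx U) (c : ℂ) (r : ℝ) :
    IsCompact (closedBall c r ∩ {x | 4 ≤ (Pal U x).ncard}) ∧
      IsTotallyDisconnected (closedBall c r ∩ {x | 4 ≤ (Pal U x).ncard}) := by
  classical
  have hEq : closedBall c r ∩ {x | 4 ≤ (Pal U x).ncard} =
      ⋃ s ∈ (Finset.univ : Finset (Fin 6)).powersetCard 4,
        (closedBall c r ∩ {x | ∀ i ∈ s, i ∈ Pal U x}) := by
    ext x
    simp only [mem_inter_iff, mem_iUnion, exists_prop, Finset.mem_powersetCard, Finset.subset_univ,
      true_and]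
    constructor
    · rintro ⟨hx, h4⟩
      obtain ⟨t, ht, htc⟩ := Set.exists_subset_card_eq (s := Pal U x) (n := 4) h4
      refine ⟨t.toFinite.toFinset, ?_, hx, fun i hi => ht (by simpa using hi)⟩
      rw [← Set.ncard_eq_toFinset_card _ t.toFinite, htc]
    · rintro ⟨s, hs, hx, hsx⟩
      refine ⟨hx, ?_⟩
      have h1 := Set.ncard_le_ncard (s := (s : Set (Fin 6))) (t := Pal U x)
        (fun i hi => hsx i (by simpa using hi)) (Set.toFinite _)
      rw [Set.ncard_coe_finset, hs] at h1
      exact h1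
  rw [hEq]
  refine ess_td_biUnion _ _ (fun s _ => ?_) fun s hs => ?_
  · refine (isCompact_closedBall c r).inter_right ?_
    have : {x | ∀ i ∈ s, i ∈ Pal U x} = ⋂ i ∈ s, closure (U i) := by
      ext x; simp [Pal]
    rw [this]
    exact isClosed_biInter fun i _ => isClosed_closure
  · exact fun t ht htp => h.td_four (Finset.mem_powersetCard.1 hs).2 t (ht.trans inter_subset_right) htp

/-- the reduction for an abstract choice of sufficient palettes -/
theorem Mx.exists_ess' (h : Mx U) (c : ℂ)
    (hs : ∀ z ∈ XX U, dist z c ≤ 6 → 4 ≤ (Pal U z).ncard → ∃ s : Set (Fin 6), s.ncard ≤ 3 ∧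
      ∀ᶠ w in 𝓝 z, ∃ i ∈ s, i ∈ Pal U w) : False := by
  classical
  set Z : Set ℂ := closedBall c 6 ∩ {x | 4 ≤ (Pal U x).ncard} with hZ
  obtain ⟨hZc, hZd⟩ := h.td_ball c 6
  have hs' : ∀ z : ℂ, ∃ s : Set (Fin 6), z ∈ Z → s.ncard ≤ 3 ∧
      ∀ᶠ w in 𝓝 z, ∃ i ∈ s, w ∈ closure (U i) := by
    intro z
    by_cases hz : z ∈ Z
    · by_cases hX : z ∈ XX U
      · obtain ⟨s, h1, h2⟩ := hs z hX (mem_closedBall.1 hz.1) hz.2
        exact ⟨s, fun _ => ⟨h1, h2⟩⟩
      · have : ∃ i, z ∈ U i := by simpa [XX] using hX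
        obtain ⟨i, hi⟩ := this
        refine ⟨{i}, fun _ => ⟨by rw [Set.ncard_singleton]; norm_num, ?_⟩⟩
        filter_upwards [(h.isOpen i).mem_nhds hi] with w hw
        exact ⟨i, rfl, subset_closure hw⟩
    · exact ⟨∅, fun hz' => absurd hz' hz⟩
  choose g hg using hs'
  obtain ⟨F', hF'c, hF's, hF'cov, δ, hδ, hF'⟩ := exists_reduced (F := fun i => closure (U i))
    (fun i => isClosed_closure) hZc hZd g (fun z hz => (hg z hz).2) one_pos
  obtain ⟨V, hV, hV3, -⟩ := exists_Mx_rel (n := 3) F' hF'c (D := closedBall c 6) (by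
      rw [eq_univ_iff_forall]
      intro x
      obtain ⟨i, hi⟩ := hF'cov x (by
        obtain ⟨i, hi⟩ := h.cover x
        exact ⟨i, hi⟩)
      exact mem_iUnion.2 ⟨i, hi⟩) isClosed_closedBall (by
      intro x hx
      rcases hF' x with ⟨h1, -⟩ | ⟨-, z, hz, -, h2⟩
      · have hxZ : x ∉ Z := fun hxZ => by
          have := h1 x hxZ
          rw [dist_self] at this
          linarith
        have h3 : ¬ 4 ≤ (Pal U x).ncard := fun h4 => hxZ ⟨hx, h4⟩
        have h4 := Set.ncard_le_ncard (s := {i | x ∈ F' i}) (t := Pal U x)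
          (fun i hi => hF's i hi) (Set.toFinite _)
        omega
      · exact (Set.ncard_le_ncard (t := g z) (fun i hi => h2 i hi) (Set.toFinite _)).trans
          (hg z hz).1)
    (by
      intro i x hx y hy
      exact free_int_closure (fun x hx => h.free i x hx) x (interior_mono (hF's i) hx) y
        (hF's i (interior_subset hy)))
  exact no3 hV c fun x _ hx => hV3 x (mem_closedBall.2 hx)

/-- **Every disc of radius six contains an essential point.** -/
theorem Mx.exists_ess (h : Mx U) (c : ℂ) : ∃ z ∈ XX U, dist z c ≤ 6 ∧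
    ∀ s : Set (Fin 6), s.ncard ≤ 3 → ¬ ∀ᶠ w in 𝓝 z, ∃ i ∈ s, i ∈ Pal U w := by
  by_contra hcon
  push Not at hcon
  exact h.exists_ess' c fun z hz hd _ => hcon z hz hd

end Vale.Agent.P032.Six
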