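import Vale.Agent.P032.S5.H483.Irr
import Vale.Agent.P032.S5.H483.Ess

/-!
# P032: six colours, irredundant palettes: some point has at least four colours

`Irr.exists_four` : every disc of radius six contains a point of `XX U` with `4 ≤ |T z|`.
`Irr.td` : these points form a closed totally disconnected set.
-/

open Set Filter Topology Metric

noncomputable section

namespace Vale.Agent.P032.Six

/-- a closed set which is locally totally disconnected is totally disconnected -/
theorem td_of_local {W : Set ℂ} (hW : IsClosed W)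
    (hloc : ∀ x, IsTotallyDisconnected (closedBall x 1 ∩ W)) : IsTotallyDisconnected W := by
  intro C hCW hC x hx y hy
  by_contra hne
  have hK : IsCompact (closedBall x 1 ∩ W) := (isCompact_closedBall x 1).inter_right hW
  have hε : 0 < min (dist x y) 1 := lt_min (dist_pos.2 hne) one_pos
  have hxK : x ∈ closedBall x 1 ∩ W := ⟨by simp, hCW hx⟩
  have : CompactSpace ↥(closedBall x 1 ∩ W) := isCompact_iff_compactSpace.1 hK
  have : TotallyDisconnectedSpace ↥(closedBall x 1 ∩ W) :=
    totallyDisconnectedSpace_subtype_iff.2 (hloc x)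
  obtain ⟨V, hV, hxV, hVs⟩ := compact_exists_isClopen_in_isOpen
    (x := (⟨x, hxK⟩ : ↥(closedBall x 1 ∩ W)))
    (U := Subtype.val ⁻¹' ball x (min (dist x y) 1)) (isOpen_ball.preimage continuous_subtype_val)
    (mem_ball_self hε)
  obtain ⟨O, hO, hOV⟩ := isOpen_induced_iff.1 hV.isOpen
  have hV' : IsClosed (Subtype.val '' V : Set ℂ) :=
    (hV.isClosed.isCompact.image continuous_subtype_val).isClosed
  have hmem' : ∀ z ∈ (Subtype.val '' V : Set ℂ), z ∈ O ∧ z ∈ ball x (min (dist x y) 1) := by
    rintro _ ⟨z, hz, rfl⟩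
    refine ⟨?_, hVs hz⟩
    rw [← hOV] at hz; exact hz
  obtain ⟨z, hzC, ⟨hzO, hzb⟩, hzV⟩ := hC (O ∩ ball x (min (dist x y) 1))
    (Subtype.val '' V : Set ℂ)ᶜ (hO.inter isOpen_ball) hV'.isOpen_compl (by
      intro z hz
      by_cases hzV : z ∈ (Subtype.val '' V : Set ℂ)
      · exact Or.inl (hmem' z hzV)
      · exact Or.inr hzV)
    ⟨x, hx, (hmem' x ⟨⟨x, hxK⟩, hxV, rfl⟩).1, mem_ball_self hε⟩
    ⟨y, hy, fun hyV => by
      have := (hmem' y hyV).2
      rw [mem_ball, dist_comm] at this
      exact absurd (lt_min_iff.1 this).1 (lt_irrefl _)⟩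
  refine hzV ⟨⟨z, ?_, hCW hzC⟩, ?_, rfl⟩
  · exact mem_closedBall.2 ((mem_ball.1 hzb).le.trans (min_le_right _ _))
  · rw [← hOV]; exact hzO

namespace Irr

variable {U : Fin 6 → Set ℂ} {T : ℂ → Set (Fin 6)}

/-- points with four colours are in `XX` -/
theorem XX_of_four (h : Irr U T) {z : ℂ} (hz : 4 ≤ (T z).ncard) : z ∈ XX U := by
  by_contra hX
  have h1 := Set.ncard_le_ncard (s := T z) (t := {i | z ∈ U i}) (fun i hi => h.off z hX i hi)
    (Set.toFinite _)
  have := h.mx.K0_three z
  omega

/-- off `XX` there are at most three colours -/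
theorem three_off (h : Irr U T) {z : ℂ} (hz : z ∉ XX U) : (T z).ncard ≤ 3 := by
  by_contra hcon
  exact hz (h.XX_of_four (by omega))

theorem isClosed_le_card (h : Irr U T) (n : ℕ) : IsClosed {x | n ≤ (T x).ncard} := by
  rw [← isOpen_compl_iff, isOpen_iff_mem_nhds]
  intro x hx
  have hx : ¬ n ≤ (T x).ncard := hx
  filter_upwards [h.nhd x] with y hy
  have := Set.ncard_le_ncard hy (Set.toFinite _)
  show ¬ n ≤ (T y).ncard
  omega

/-- **[4]** the points with at least four colours are totally disconnected -/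
theorem td (h : Irr U T) : IsTotallyDisconnected {x | 4 ≤ (T x).ncard} := by
  refine td_of_local (h.isClosed_le_card 4) fun x => ?_
  intro C hC hC'
  refine (h.mx.td_ball x 1).2 C (hC.trans ?_) hC'
  exact fun z hz => ⟨hz.1, le_trans hz.2 (Set.ncard_le_ncard (h.sub z) (Set.toFinite _))⟩

/-- **Every disc of radius six contains a point with at least four colours.** -/
theorem exists_four (h : Irr U T) (c : ℂ) : ∃ z, dist z c ≤ 6 ∧ 4 ≤ (T z).ncard := by
  by_contra hcon
  push Not at hcon
  obtain ⟨V, hV, hV3, -⟩ := exists_Mx_rel (n := 3) (fun i => {x | i ∈ T x}) h.closed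
    (D := closedBall c 6) (by
      rw [eq_univ_iff_forall]
      intro x
      obtain ⟨i, hi⟩ := h.ne x
      exact mem_iUnion.2 ⟨i, hi⟩) isClosed_closedBall (by
      intro x hx
      have h1 := hcon x (mem_closedBall.1 hx)
      have h2 : {i | x ∈ {x | i ∈ T x}} = T x := rfl
      rw [h2]
      omega)
    (by
      intro i x hx y hy
      have hsub : {x | i ∈ T x} ⊆ closure (U i) := fun w hw => h.sub w hw
      exact free_int_closure (fun x hx => h.mx.free i x hx) x (interior_mono hsub hx) y
        (hsub (interior_subset hy)))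
  exact no3 hV c fun x _ hx => hV3 x (mem_closedBall.2 hx)

end Irr

end Vale.Agent.P032.Six
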