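import Vale.Agent.P032.Six.Star

/-!
# P032: irredundant palettes

For a maximal family `U` there is a closed cover `{x | i ∈ T x}` with `T x ⊆ Kst U x` which is
minimal: near every point of `{x | i ∈ T x}` there are points with `T w = {i}`.  Structure `Irr U T`.
-/

open Set Filter Topology Metric

noncomputable section

namespace Vale.Agent.P032.Six

variable {k : ℕ}

/-- an irredundant closed cover below a maximal family -/
structure Irr (U : Fin k → Set ℂ) (T : ℂ → Set (Fin k)) : Prop where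
  mx : Mx U
  max : ∀ i x, (∀ y ∈ closure (U i), dist x y ≠ 1) → x ∈ U i
  closed : ∀ i, IsClosed {x | i ∈ T x}
  ne : ∀ x, (T x).Nonempty
  sub : ∀ x, T x ⊆ Pal U x
  off : ∀ x, x ∉ XX U → ∀ i ∈ T x, x ∈ U i
  pure : ∀ x, ∀ i ∈ T x, ∃ᶠ w in 𝓝 x, T w = {i}

/-- **Existence.** -/
theorem exists_irr_of {U : Fin k → Set ℂ} (h : Mx U)
    (hmax : ∀ i x, (∀ y ∈ closure (U i), dist x y ≠ 1) → x ∈ U i) : ∃ T, Irr U T := by
  classical
  -- families of open sets whose complements cover
  let S : Set (Fin k → Set ℂ) := {O | (∀ i, IsOpen (O i)) ∧ (∀ i, {x | i ∈ Kst U x}ᶜ ⊆ O i) ∧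
    ∀ x, ∃ i, x ∉ O i}
  have h0 : (fun i => {x | i ∈ Kst U x}ᶜ) ∈ S :=
    ⟨fun i => (isClosed_Fst U i).isOpen_compl, fun i => Subset.rfl, fun x => by
      obtain ⟨i, hi⟩ := h.Kst_nonempty x
      exact ⟨i, fun hcon => hcon hi⟩⟩
  obtain ⟨O, -, hO⟩ := zorn_le_nonempty₀ S (fun c hc hchain O₀ hO₀ => by
    refine ⟨fun i => ⋃ O ∈ c, O i, ⟨fun i => isOpen_biUnion fun O hO => (hc hO).1 i, fun i => ?_, ?_⟩,
      fun O hO i => subset_biUnion_of_mem (u := fun O : Fin k → Set ℂ => O i) hO⟩
    · exact ((hc hO₀).2.1 i).trans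
        (subset_biUnion_of_mem (u := fun O : Fin k → Set ℂ => O i) hO₀)
    · intro x
      by_contra hcon
      push Not at hcon
      -- a single member contains `x` for all `i`
      have key : ∀ s : Finset (Fin k), ∃ O ∈ c, ∀ i ∈ s, x ∈ O i := by
        intro s
        induction s using Finset.induction_on with
        | empty => exact ⟨O₀, hO₀, fun i hi => absurd hi (Finset.notMem_empty i)⟩
        | insert a s ha ih =>
          obtain ⟨O, hO, hs⟩ := ih
          obtain ⟨O', hO', hx'⟩ := mem_iUnion₂.1 (hcon a)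
          rcases hchain.total hO hO' with hle | hle
          · refine ⟨O', hO', fun i hi => ?_⟩
            rcases Finset.mem_insert.1 hi with rfl | hi
            · exact hx'
            · exact hle i (hs i hi)
          · refine ⟨O, hO, fun i hi => ?_⟩
            rcases Finset.mem_insert.1 hi with rfl | hi
            · exact hle _ hx'
            · exact hs i hi
      obtain ⟨O, hO, hall⟩ := key Finset.univ
      obtain ⟨i, hi⟩ := (hc hO).2.2 x
      exact hi (hall i (Finset.mem_univ i))) _ h0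
  have hOS : O ∈ S := hO.prop
  refine ⟨fun x => {i | x ∉ O i}, h, hmax, fun i => ?_, fun x => ?_, fun x i hi => ?_,
    fun x hx i hi => ?_, fun x i hi => ?_⟩
  · exact (hOS.1 i).isClosed_compl
  · obtain ⟨i, hi⟩ := hOS.2.2 x
    exact ⟨i, hi⟩
  · have : i ∈ Kst U x := by
      by_contra hcon
      exact hi (hOS.2.1 i hcon)
    exact Kst_sub x this
  · have : i ∈ Kst U x := by
      by_contra hcon
      exact hi (hOS.2.1 i hcon)
    exact h.Kst_mem hx this
  · intro hcon
    obtain ⟨N, hN, hNo, hxN⟩ := _root_.mem_nhds_iff.1 hcon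
    have hN' : ∀ w ∈ N, {j | w ∉ O j} ≠ {i} := fun w hw => hN hw
    have h1 : Function.update O i (O i ∪ N) ∈ S := by
      refine ⟨fun j => ?_, fun j => ?_, fun y => ?_⟩
      · rcases eq_or_ne j i with rfl | hji
        · rw [Function.update_self]; exact (hOS.1 _).union hNo
        · rw [Function.update_of_ne hji]; exact hOS.1 j
      · rcases eq_or_ne j i with rfl | hji
        · rw [Function.update_self]; exact (hOS.2.1 _).trans subset_union_left
        · rw [Function.update_of_ne hji]; exact hOS.2.1 j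
      · obtain ⟨j, hj⟩ := hOS.2.2 y
        by_cases hyN : y ∈ N
        · -- another colour
          by_contra hcov
          push Not at hcov
          refine hN' y hyN ?_
          have h2 : ∀ m, m ≠ i → y ∈ O m := by
            intro m hm
            have := hcov m
            rwa [Function.update_of_ne hm] at this
          ext m
          simp only [mem_ofPred_eq, mem_singleton_iff]
          constructor
          · intro hm
            by_contra hmi
            exact hm (h2 m hmi)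
          · rintro rfl
            rcases eq_or_ne j m with rfl | hjm
            · exact hj
            · exact absurd (h2 j hjm) hj
        · refine ⟨j, ?_⟩
          rcases eq_or_ne j i with rfl | hji
          · rw [Function.update_self]; exact fun h3 => h3.elim hj hyN
          · rw [Function.update_of_ne hji]; exact hj
    have h2 : O ≤ Function.update O i (O i ∪ N) := by
      intro j
      rcases eq_or_ne j i with rfl | hji
      · rw [Function.update_self]; exact subset_union_left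
      · rw [Function.update_of_ne hji]
    have h3 := hO.le_of_ge h1 h2 i
    rw [Function.update_self] at h3
    exact hi (h3 (Or.inr hxN))

/-- existence from arbitrary open sets without unit distances and with dense union -/
theorem exists_irr (V : Fin k → Set ℂ) (hV : ∀ i, IsOpen (V i))
    (h : ∀ i, ∀ x ∈ V i, ∀ y ∈ V i, dist x y ≠ 1) (hd : Dense (⋃ i, V i)) :
    ∃ U T, Irr U T ∧ ∀ i, V i ⊆ U i := by
  choose U hVU hU hmax using fun i => exists_maximal (V i) (hV i) (h i)
  have hM := Mx.of_max hU (hd.mono (iUnion_mono hVU)) hmax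
  obtain ⟨T, hT⟩ := exists_irr_of hM fun i x hx => (hmax i x).2 hx
  exact ⟨U, T, hT, hVU⟩

variable {U : Fin k → Set ℂ} {T : ℂ → Set (Fin k)}

namespace Irr

/-- `T` is upper semicontinuous -/
theorem nhd (h : Irr U T) (x : ℂ) : ∀ᶠ z in 𝓝 x, T z ⊆ T x := by
  have h1 : ∀ i, ∀ᶠ z in 𝓝 x, i ∈ T z → i ∈ T x := by
    intro i
    by_cases hx : i ∈ T x
    · exact Eventually.of_forall fun z _ => hx
    · filter_upwards [(h.closed i).isOpen_compl.mem_nhds hx] with z hz hz'
      exact absurd hz' hz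
  filter_upwards [eventually_all.2 h1] with z hz i hi
  exact hz i hi

/-- every point outside `U i` has an `i`-partner -/
theorem partner (h : Irr U T) {i : Fin k} {x : ℂ} (hx : x ∉ U i) :
    ∃ y, dist x y = 1 ∧ i ∈ Pal U y := by
  by_contra hcon
  push Not at hcon
  exact hx (h.max i x fun y hy hxy => hcon y hxy hy)

theorem partner_XX (h : Irr U T) {x : ℂ} (hx : x ∈ XX U) (i : Fin k) :
    ∃ y, dist x y = 1 ∧ i ∈ Pal U y := h.partner (hx i)

/-- the interior of the closure is the set itself -/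
theorem int_closure (h : Irr U T) {i : Fin k} {x : ℂ} (hx : x ∈ interior (closure (U i))) :
    x ∈ U i :=
  h.max i x (free_int_closure (fun x hx => h.mx.free i x hx) x hx)

/-- a point with one colour is in the open set -/
theorem mem_of_single (h : Irr U T) {i : Fin k} {x : ℂ} (hx : T x ⊆ {i}) : x ∈ U i := by
  refine h.int_closure (mem_interior_iff_mem_nhds.2 ?_)
  filter_upwards [h.nhd x] with w hw
  obtain ⟨j, hj⟩ := h.ne w
  have : j = i := by simpa using hx (hw hj)
  exact h.sub w (this ▸ hj)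

/-- two colours on `XX` -/
theorem two (h : Irr U T) {x : ℂ} (hx : x ∈ XX U) (i : Fin k) : ∃ j ∈ T x, j ≠ i := by
  by_contra hcon
  push Not at hcon
  exact hx i (h.mem_of_single fun j hj => by simpa using hcon j hj)

/-- `(S3)` -/
theorem off_pal (h : Irr U T) {x y : ℂ} (hxy : dist x y = 1) (hx : x ∉ XX U) {i : Fin k}
    (hi : i ∈ T x) : i ∉ Pal U y :=
  h.mx.notMem' (h.off x hx i hi) hxy

/-- a colour of `T x` which is in `Pal y`, `|x - y| = 1`: `x` is in `XX` -/
theorem mem_XX (h : Irr U T) {x y : ℂ} (hxy : dist x y = 1) {i : Fin k} (hi : i ∈ T x)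
    (hi' : i ∈ Pal U y) : x ∈ XX U := by
  by_contra hx
  exact h.off_pal hxy hx hi hi'

/-- sweeping: the colours of an arc of `S(z)` are absent (also in `Pal`) on a double wedge, so
**Gap lemma** -/
theorem gap (h : Irr U T) {z p : ℂ} (hz : z ∈ XX U) (hp : dist p z = 1) {P : Set (Fin k)}
    (hJ : ∀ᶠ q in 𝓝[sphere z 1] p, P ⊆ Pal U q) (l : Fin k) : ¬ T z ⊆ insert l P := by
  intro hsub
  have key : ∀ w, T w ⊆ T z → (∀ i ∈ P, w ∉ closure (U i)) → l ∈ T w := by
    intro w hw hwP
    obtain ⟨i, hi⟩ := h.ne w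
    rcases hsub (hw hi) with rfl | hiP
    · exact hi
    · exact absurd (h.sub w hi) (hwP i hiP)
  obtain ⟨y, hzy, hly⟩ := h.partner_XX hz l
  obtain ⟨g, hgU, w, hw, hwg, hwP⟩ := h.mx.gap_pt hp hJ (h.mx.isOpen l) hzy hly (h.nhd z)
  exact h.mx.notMem' hgU (by rw [dist_comm]; exact hwg) (h.sub w (key w hw hwP))

/-- gap lemma, counting form -/
theorem gap_two (h : Irr U T) {z p : ℂ} (hz : z ∈ XX U) (hp : dist p z = 1) {P : Set (Fin k)}
    (hJ : ∀ᶠ q in 𝓝[sphere z 1] p, P ⊆ Pal U q) : 2 ≤ (T z \ P).ncard := by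
  by_contra hcon
  have h1 : (T z \ P).ncard ≤ 1 := by omega
  have hins : ∃ l, T z ⊆ insert l P := by
    rcases Set.eq_empty_or_nonempty (T z \ P) with he | ⟨l, hl⟩
    · obtain ⟨i, -⟩ := h.ne z
      exact ⟨i, (sdiff_eq_empty.1 he).trans (subset_insert _ _)⟩
    · refine ⟨l, fun m hm => ?_⟩
      by_cases hmq : m ∈ P
      · exact Or.inr hmq
      · left
        exact (Set.ncard_le_one (Set.toFinite _)).1 h1 m ⟨hm, hmq⟩ l hl
  obtain ⟨l, hl⟩ := hins
  exact h.gap hz hp hJ l hl

/-- the palette is locally constant near some point of any relative neighbourhood -/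
theorem const (h : Irr U T) {S : Set ℂ} {y : ℂ} (hy : y ∈ S) {V : Set ℂ} (hV : V ∈ 𝓝 y) :
    ∃ q ∈ V ∩ S, ∀ᶠ q' in 𝓝[S] q, T q' = T q := by
  obtain ⟨w, hwV, hwo, hyw⟩ := _root_.mem_nhds_iff.1 hV
  have hne : ((fun q => (T q).ncard) '' (w ∩ S)).Nonempty := ⟨_, y, ⟨hyw, hy⟩, rfl⟩
  obtain ⟨_, ⟨q, ⟨hqw, hqS⟩, rfl⟩, hqmin⟩ :=
    WellFounded.has_min (r := ((· < ·) : ℕ → ℕ → Prop)) wellFounded_lt _ hne
  have hmin : ∀ q' ∈ w ∩ S, (T q).ncard ≤ (T q').ncard := by
    intro q' hq'
    exact not_lt.1 (hqmin _ ⟨q', hq', rfl⟩)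
  refine ⟨q, ⟨hwV hqw, hqS⟩, ?_⟩
  filter_upwards [mem_nhdsWithin_of_mem_nhds (hwo.mem_nhds hqw),
    mem_nhdsWithin_of_mem_nhds (h.nhd q), self_mem_nhdsWithin] with q' h1 h2 h3
  exact Set.eq_of_subset_of_ncard_le h2 (hmin q' ⟨h1, h3⟩) (Set.toFinite _)

/-- if `T y ⊆ T x`, `|x - y| = 1`, then near `y` there is an arc of `S(x)` with constant palette
`P ⊆ T y`, at least two colours in `P`, and at least two colours of `T x` outside `P` -/
theorem arc_of_sub (h : Irr U T) {x y : ℂ} (hxy : dist y x = 1) (hsub : T y ⊆ T x) {V : Set ℂ}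
    (hV : V ∈ 𝓝 y) :
    ∃ q ∈ V, dist q x = 1 ∧ (∀ᶠ q' in 𝓝[sphere x 1] q, T q' = T q) ∧ T q ⊆ T y ∧
      2 ≤ (T q).ncard ∧ 2 ≤ (T x \ T q).ncard := by
  have hx : x ∈ XX U := by
    obtain ⟨i, hi⟩ := h.ne y
    exact h.mem_XX (by rw [dist_comm]; exact hxy) (hsub hi) (h.sub y hi)
  obtain ⟨q, ⟨⟨hqV, hq1⟩, hq2⟩, hq3⟩ := h.const (S := sphere x 1) (y := y) hxy
    (inter_mem hV (h.nhd y))
  have hq1 : T q ⊆ T y := hq1
  have hqx : dist q x = 1 := hq2
  refine ⟨q, hqV, hqx, hq3, hq1, ?_, h.gap_two hx hqx (hq3.mono fun q' hq' => ?_)⟩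
  · by_contra hcon
    have h1 : (T q).ncard ≤ 1 := by omega
    obtain ⟨i, hi⟩ := h.ne q
    have h2 : T q ⊆ {i} := fun m hm => (Set.ncard_le_one (Set.toFinite _)).1 h1 m hm i hi
    exact h.mx.notMem' (h.mem_of_single h2) hqx (h.sub x (hsub (hq1 hi)))
  · rw [← hq']; exact h.sub q'

/-- **[2]** -/
theorem not_sub (h : Irr U T) {x y : ℂ} (hxy : dist y x = 1) (h3 : (T x).ncard ≤ 3) :
    ¬ T y ⊆ T x := by
  intro hsub
  obtain ⟨q, -, -, -, hq1, hq2, hq3⟩ := h.arc_of_sub hxy hsub univ_mem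
  have := Set.ncard_sdiff (hq1.trans hsub) (Set.toFinite _)
  omega

theorem not_sub' (h : Irr U T) {x y : ℂ} (hxy : dist y x = 1) (h3 : (T x).ncard ≤ 3) :
    ∃ t ∈ T y, t ∉ T x := by
  by_contra hcon
  push Not at hcon
  exact h.not_sub hxy h3 hcon

/-- **no-layering**: a point `x` near `z` whose palette contains the palette of a point of `S(z)` has
at least four colours -/
theorem no_layer (h : Irr U T) {z q : ℂ} (hq : dist q z = 1) :
    ∀ᶠ x in 𝓝 z, T q ⊆ T x → 4 ≤ (T x).ncard := by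
  have h1 : Tendsto (fun x => q + (x - z)) (𝓝 z) (𝓝 q) := by
    have : Continuous fun x : ℂ => q + (x - z) := by fun_prop
    have h2 := this.tendsto z
    simpa using h2
  filter_upwards [h1.eventually (h.nhd q)] with x hx hsub
  by_contra hcon
  refine h.not_sub (x := x) (y := q + (x - z)) ?_ (by omega) (hx.trans hsub)
  rw [dist_eq_norm] at hq ⊢
  rw [← hq]; congr 1; ring

/-- **Lemma X**, first part -/
theorem arcX (h : Irr U T) {u p : ℂ} {t : Fin k} (h3 : (T u).ncard ≤ 3)
    (ht : T p ⊆ insert t (T u)) : ∀ᶠ q in 𝓝[sphere u 1] p, t ∈ T q := by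
  filter_upwards [mem_nhdsWithin_of_mem_nhds (h.nhd p), self_mem_nhdsWithin] with q h1 h2
  obtain ⟨s, hs, hsu⟩ := h.not_sub' (x := u) (y := q) h2 h3
  rcases ht (h1 hs) with rfl | h4
  · exact hs
  · exact absurd h4 hsu

/-- **Lemma X** -/
theorem lemmaX (h : Irr U T) {u p v : ℂ} {t : Fin k} (hup : dist p u = 1)
    (h3 : (T u).ncard ≤ 3) (ht : T p ⊆ insert t (T u)) (hv : dist p v = 1)
    (htv : t ∈ Pal U v) : v = u ∨ v + u = 2 * p :=
  h.mx.partner_line hup ((h.arcX h3 ht).mono fun q hq => h.sub q hq) hv htv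

/-- **Lemma B**, arc form: the circle about an `i`-partner of a point with `T x ⊆ {i, j}` carries
`j` near `x` -/
theorem arcB (h : Irr U T) {x y : ℂ} {i j : Fin k} (hx : T x ⊆ {i, j}) (hi : i ∈ Pal U y) :
    ∀ᶠ q in 𝓝[sphere y 1] x, j ∈ T q := by
  filter_upwards [mem_nhdsWithin_of_mem_nhds (h.nhd x), self_mem_nhdsWithin] with q h1 h2
  by_contra hcon
  have h4 : T q ⊆ {i} := by
    intro m hm
    rcases hx (h1 hm) with h5 | h5
    · exact h5
    · exact absurd (h5 ▸ hm) hcon
  exact h.mx.notMem' (h.mem_of_single h4) h2 hi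

/-- **Lemma B** -/
theorem lemmaB (h : Irr U T) {x y y' : ℂ} {i j : Fin k} (hx : T x ⊆ {i, j})
    (hy : dist x y = 1) (hy' : dist x y' = 1) (hi : i ∈ Pal U y) (hj : j ∈ Pal U y') :
    y' = y ∨ y' + y = 2 * x :=
  h.mx.partner_line (u := y) (p := x) (t := j) hy ((h.arcB hx hi).mono fun q hq => h.sub q hq)
    hy' hj

/-- **[5]** -/
theorem five (h : Irr U T) {u u' q : ℂ} (h3' : (T u').ncard ≤ 3)
    (hcov : ∀ i, i ∈ T u ∨ i ∈ T u') (hne : u ≠ u')
    (hq : dist q u = 1) (hq' : dist q u' = 1) (hne2 : u + u' ≠ 2 * q) (s : Fin k) :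
    ∃ t ∈ T q, t ∈ T u ∧ t ≠ s := by
  by_contra hcon
  push Not at hcon
  have hsub : T q ⊆ insert s (T u') := by
    intro m hm
    rcases hcov m with h1 | h1
    · exact Or.inl (hcon m hm h1)
    · exact Or.inr h1
  by_cases hsu : s ∈ T u
  · rcases h.lemmaX hq' h3' hsub hq (h.sub u hsu) with h1 | h1
    · exact hne h1
    · exact hne2 h1
  · refine h.not_sub hq' h3' fun m hm => ?_
    rcases hcov m with h1 | h1
    · exact absurd (hcon m hm h1 ▸ h1) hsu
    · exact h1

/-- palettes of size at least four are sufficient palettes without sufficient proper subset: for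
every colour `i` of `T x` there are points arbitrarily near `x` with palette `{i}` -/
theorem pure_closure (h : Irr U T) {x : ℂ} {i : Fin k} (hi : i ∈ T x) :
    x ∈ closure (interior {w | T w = {i}}) := by
  have hopen : IsOpen {w | T w = {i}} := by
    rw [isOpen_iff_mem_nhds]
    intro w hw
    have hw : T w = {i} := hw
    filter_upwards [h.nhd w] with v hv
    obtain ⟨j, hj⟩ := h.ne v
    rw [hw] at hv
    have h1 : j = i := by simpa using hv hj
    exact Subset.antisymm hv (by rintro m rfl; exact h1 ▸ hj)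
  rw [hopen.interior_eq, mem_closure_iff_frequently]
  exact h.pure x i hi

end Irr

end Vale.Agent.P032.Six
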