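import Vale.Agent.P032.Six.Gap

/-!
# P032, block (L-2): distance-two rule for complementary palettes and the lens lemma

`Mx.five` gives: complementary 3-palettes at a distance `< 2` force points with at least four
colours.  The lens lemma deals with the borderline distance `2`.
-/

open Set Filter Topology Metric

noncomputable section

namespace Vale.Agent.P032.Six

variable {k : ℕ} {U : Fin k → Set ℂ}

/-! ### intersection points of two unit circles -/

/-- two unit circles whose centres have distance `< 2` meet -/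
theorem l2_exists_inter {u v : ℂ} (h2 : dist u v < 2) (hne : u ≠ v) :
    ∃ q, dist q u = 1 ∧ dist q v = 1 ∧ u + v ≠ 2 * q := by
  -- `q = (u + v)/2 + i s (u - v)`
  set d := dist u v with hd
  have hd0 : 0 < d := dist_pos.2 hne
  set s := Real.sqrt (1 - d ^ 2 / 4) / d with hs
  have h1 : 0 < 1 - d ^ 2 / 4 := by nlinarith
  have hs0 : 0 < s := div_pos (Real.sqrt_pos.2 h1) hd0
  have hs2 : s ^ 2 * d ^ 2 = 1 - d ^ 2 / 4 := by
    rw [hs, div_pow, Real.sq_sqrt h1.le]
    field_simp
  have hdd : d ^ 2 = (u.re - v.re) ^ 2 + (u.im - v.im) ^ 2 := sq_dist u v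
  set q : ℂ := ⟨(u.re + v.re) / 2 - s * (u.im - v.im), (u.im + v.im) / 2 + s * (u.re - v.re)⟩
    with hq
  refine ⟨q, ?_, ?_, ?_⟩
  · rw [dist_eq_one_iff]
    simp only [hq]
    rw [hdd] at hs2
    nlinarith
  · rw [dist_eq_one_iff]
    simp only [hq]
    rw [hdd] at hs2
    nlinarith
  · intro hcon
    have hre := congrArg Complex.re hcon
    have him := congrArg Complex.im hcon
    simp [hq] at hre him
    have h3 : s * (u.im - v.im) = 0 := by linarith
    have h4 : s * (u.re - v.re) = 0 := by linarith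
    have h5 : u.im - v.im = 0 := (mul_eq_zero.1 h3).resolve_left hs0.ne'
    have h6 : u.re - v.re = 0 := (mul_eq_zero.1 h4).resolve_left hs0.ne'
    exact hne (Complex.ext (by linarith) (by linarith))

/-! ### the distance-two rule -/

/-- at an intersection point of the circles about two points with complementary palettes of size
at most three there are two colours of each palette; in particular at least four colours -/
theorem Mx.four_le (h : Mx U) {u u' q : ℂ} (hu : u ∈ XX U) (hu' : u' ∈ XX U)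
    (h3 : (Pal U u).ncard ≤ 3) (h3' : (Pal U u').ncard ≤ 3)
    (hcov : ∀ i, i ∈ Pal U u ∨ i ∈ Pal U u') (hdis : ∀ i ∈ Pal U u, i ∉ Pal U u')
    (hq : dist q u = 1) (hq' : dist q u' = 1) (hne2 : u + u' ≠ 2 * q) :
    q ∈ XX U ∧ 4 ≤ (Pal U q).ncard := by
  have hne : u ≠ u' := by
    rintro rfl
    obtain ⟨i, hi⟩ := h.cover u
    exact hdis i hi hi
  constructor
  · intro i hi
    rcases hcov i with h1 | h1
    · exact h.notMem' hi hq h1
    · exact h.notMem' hi hq' h1
  · obtain ⟨i0, _⟩ := h.cover u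
    obtain ⟨a, ha, hau, _⟩ := h.five hu' h3' hcov hne hq hq' hne2 i0
    obtain ⟨b, hb, hbu, hba⟩ := h.five hu' h3' hcov hne hq hq' hne2 a
    obtain ⟨c, hc, hcu, _⟩ := h.five hu h3 (fun i => (hcov i).symm) (Ne.symm hne) hq' hq
      (by rw [add_comm]; exact hne2) i0
    obtain ⟨d, hd, hdu, hdc⟩ := h.five hu h3 (fun i => (hcov i).symm) (Ne.symm hne) hq' hq
      (by rw [add_comm]; exact hne2) c
    have hac : a ≠ c := fun e => hdis a hau (e ▸ hcu)
    have had : a ≠ d := fun e => hdis a hau (e ▸ hdu)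
    have hbc : b ≠ c := fun e => hdis b hbu (e ▸ hcu)
    have hbd : b ≠ d := fun e => hdis b hbu (e ▸ hdu)
    have hsub : (({a, b, c, d} : Finset (Fin k)) : Set (Fin k)) ⊆ Pal U q := by
      intro m hm
      simp only [Finset.coe_insert, Finset.coe_singleton, mem_insert_iff,
        mem_singleton_iff] at hm
      rcases hm with rfl | rfl | rfl | rfl <;> assumption
    have hcard : (({a, b, c, d} : Finset (Fin k)) : Set (Fin k)).ncard = 4 := by
      rw [Set.ncard_coe_finset]
      rw [Finset.card_insert_of_notMem (by simp [hba.symm, hac, had]),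
        Finset.card_insert_of_notMem (by simp [hbc, hbd]),
        Finset.card_insert_of_notMem (by simp [hdc.symm]), Finset.card_singleton]
    rw [← hcard]
    exact Set.ncard_le_ncard hsub (Set.toFinite _)

/-- **Distance-two rule**: complementary palettes of size at most three at a distance `< 2` force
a point of `X` with at least four colours at distance one from both. -/
theorem Mx.two_le_dist (h : Mx U) {u u' : ℂ} (hu : u ∈ XX U) (hu' : u' ∈ XX U)
    (h3 : (Pal U u).ncard ≤ 3) (h3' : (Pal U u').ncard ≤ 3)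
    (hcov : ∀ i, i ∈ Pal U u ∨ i ∈ Pal U u') (hdis : ∀ i ∈ Pal U u, i ∉ Pal U u')
    (hZ : ∀ q ∈ XX U, dist q u = 1 → (Pal U q).ncard ≤ 3) : 2 ≤ dist u u' := by
  by_contra hlt
  push Not at hlt
  have hne : u ≠ u' := by
    rintro rfl
    obtain ⟨i, hi⟩ := h.cover u
    exact hdis i hi hi
  obtain ⟨q, hq, hq', hne2⟩ := l2_exists_inter hlt hne
  obtain ⟨hqX, h4⟩ := h.four_le hu hu' h3 h3' hcov hdis hq hq' hne2
  have := hZ q hqX hq
  omega

/-! ### the lens lemma -/

theorem l2_cis_add (a b : ℝ) : cis (a + b) = cis a * cis b := by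
  unfold cis
  rw [← Complex.exp_add]
  congr 1
  push_cast
  ring

theorem l2_cis_mul_conj (a : ℝ) : cis a * (starRingEnd ℂ) (cis a) = 1 := by
  rw [Complex.mul_conj, Complex.normSq_eq_norm_sq, norm_cis]
  norm_num

/-- polar coordinates near a point at distance two -/
theorem l2_exists_polar (u' : ℂ) (θ : ℝ) {η : ℝ} (hη : 0 < η) :
    ∀ᶠ w in 𝓝 (u' + 2 * cis θ), ∃ r : ℝ, |r - θ| < η ∧ w = u' + ‖w - u'‖ * cis r := by
  have hcont : ContinuousAt (fun w : ℂ => Complex.arg ((w - u') * (starRingEnd ℂ) (cis θ)))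
      (u' + 2 * cis θ) := by
    have h1 : ContinuousAt (fun w : ℂ => (w - u') * (starRingEnd ℂ) (cis θ)) (u' + 2 * cis θ) := by
      fun_prop
    refine ContinuousAt.comp (g := Complex.arg) ?_ h1
    apply Complex.continuousAt_arg
    have : (u' + 2 * cis θ - u') * (starRingEnd ℂ) (cis θ) = 2 := by
      rw [add_sub_cancel_left, mul_assoc, l2_cis_mul_conj, mul_one]
    rw [this]
    left
    norm_num
  have h0 : Complex.arg ((u' + 2 * cis θ - u') * (starRingEnd ℂ) (cis θ)) = 0 := by
    rw [add_sub_cancel_left, mul_assoc, l2_cis_mul_conj, mul_one]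
    have : (2 : ℂ) = ((2 : ℝ) : ℂ) := by norm_num
    rw [this]
    exact Complex.arg_ofReal_of_nonneg (by norm_num)
  have hev := Metric.tendsto_nhds.1 hcont η hη
  filter_upwards [hev] with w hw
  rw [h0, Real.dist_eq, sub_zero] at hw
  refine ⟨θ + Complex.arg ((w - u') * (starRingEnd ℂ) (cis θ)), by simpa using hw, ?_⟩
  have h1 := Complex.norm_mul_exp_arg_mul_I ((w - u') * (starRingEnd ℂ) (cis θ))
  have h2 : ‖(w - u') * (starRingEnd ℂ) (cis θ)‖ = ‖w - u'‖ := by
    rw [norm_mul, RCLike.norm_conj, norm_cis, mul_one]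
  rw [h2] at h1
  have h3 : (‖w - u'‖ : ℂ) * cis (θ + Complex.arg ((w - u') * (starRingEnd ℂ) (cis θ)))
      = w - u' := by
    rw [l2_cis_add]
    calc (‖w - u'‖ : ℂ) * (cis θ * cis (Complex.arg ((w - u') * (starRingEnd ℂ) (cis θ))))
        = cis θ * ((‖w - u'‖ : ℂ) *
            Complex.exp (Complex.arg ((w - u') * (starRingEnd ℂ) (cis θ)) * Complex.I)) := by
          unfold cis; ring
      _ = cis θ * ((w - u') * (starRingEnd ℂ) (cis θ)) := by rw [h1]
      _ = (w - u') * (cis θ * (starRingEnd ℂ) (cis θ)) := by ring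
      _ = w - u' := by rw [l2_cis_mul_conj, mul_one]
  rw [h3]
  ring

/-- if an arc about `v` of the circle about `u'` lies in `F_t`, then the points of `F_t` near the
point antipodal to `u'` have distance at least two from `u'` -/
theorem Mx.lens0 (h : Mx U) {u' v : ℂ} {t : Fin k} (hv : dist v u' = 1)
    (hJ : ∀ᶠ q in 𝓝[sphere u' 1] v, t ∈ Pal U q) :
    ∀ᶠ w in 𝓝 (2 * v - u'), t ∈ Pal U w → 2 ≤ dist w u' := by
  obtain ⟨θ, hθ⟩ := exists_cis (u := v - u') (by rw [← dist_eq_norm]; exact hv)
  have hvθ : u' + cis θ = v := by rw [← hθ]; ring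
  have hwθ : 2 * v - u' = u' + 2 * cis θ := by rw [← hvθ]; ring
  obtain ⟨s, hs, hsub⟩ := mem_nhdsWithin_iff_exists_mem_nhds_inter.1 hJ
  have hc : ContinuousAt (fun r => u' + cis r) θ :=
    (continuous_const.add continuous_cis).continuousAt
  have hpre : (fun r => u' + cis r) ⁻¹' s ∈ 𝓝 θ := hc.preimage_mem_nhds (by rw [hvθ]; exact hs)
  obtain ⟨η, hη, hball⟩ := Metric.mem_nhds_iff.1 hpre
  set e := min η 1 / 2 with he
  have he0 : 0 < e := by positivity
  have heη : e < η := by
    have h1 := min_le_left η 1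
    have h2 : 0 < min η 1 := lt_min hη one_pos
    rw [he]; linarith
  have he1 : e < 1 := by
    have h1 := min_le_right η 1
    have h2 : 0 < min η 1 := lt_min hη one_pos
    rw [he]; linarith
  -- the point `b` outside
  have hcos : Real.cos e < 1 := by
    have h1 := Real.cos_lt_cos_of_nonneg_of_le_pi_div_two (x := 0) (y := e) le_rfl
      (by have := Real.pi_gt_three; linarith) he0
    simpa using h1
  have hb : 1 < dist (u' + cis (θ + e)) (u' + 2 * cis θ) := by
    rw [one_lt_dist_iff]
    have hre : (cis (θ + e)).re = Real.cos (θ + e) := by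
      rw [cis, Complex.exp_ofReal_mul_I_re]
    have him : (cis (θ + e)).im = Real.sin (θ + e) := by
      rw [cis, Complex.exp_ofReal_mul_I_im]
    have hre' : (cis θ).re = Real.cos θ := by rw [cis, Complex.exp_ofReal_mul_I_re]
    have him' : (cis θ).im = Real.sin θ := by rw [cis, Complex.exp_ofReal_mul_I_im]
    have h1 : (u' + cis (θ + e)).re - (u' + 2 * cis θ).re = Real.cos (θ + e) - 2 * Real.cos θ := by
      simp [hre, hre']
    have h2 : (u' + cis (θ + e)).im - (u' + 2 * cis θ).im = Real.sin (θ + e) - 2 * Real.sin θ := by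
      simp [him, him']
    rw [h1, h2]
    have h3 : Real.cos (θ + e) * Real.cos θ + Real.sin (θ + e) * Real.sin θ = Real.cos e := by
      rw [← Real.cos_sub]; congr 1; ring
    have h4 := Real.sin_sq_add_cos_sq (θ + e)
    have h5 := Real.sin_sq_add_cos_sq θ
    nlinarith
  have e1 : ∀ᶠ w in 𝓝 (u' + 2 * cis θ), 1 < dist (u' + cis (θ + e)) w :=
    (continuous_const.dist continuous_id).continuousAt.eventually (Ioi_mem_nhds hb)
  have e2 := l2_exists_polar u' θ hη
  have e3 : ∀ᶠ w in 𝓝 (u' + 2 * cis θ), w ≠ u' := by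
    apply isOpen_ne.mem_nhds
    intro hcon
    have : (2 : ℂ) * cis θ = 0 := by linear_combination hcon
    have h1 := congrArg norm this
    rw [norm_mul, norm_cis] at h1
    norm_num at h1
  rw [hwθ]
  filter_upwards [e1, e2, e3] with w h1 h2 h3 hw
  by_contra hlt
  push Not at hlt
  obtain ⟨r, hr, hwr⟩ := h2
  have hn : ‖w - u'‖ = dist w u' := (dist_eq_norm w u').symm
  have hpos : 0 < dist w u' := dist_pos.2 h3
  have ha : dist (u' + cis r) w < 1 := by
    have h4 : u' + cis r - w = ((1 - ‖w - u'‖ : ℝ) : ℂ) * cis r := by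
      conv_lhs => rw [hwr]
      push_cast
      ring
    rw [dist_eq_norm, h4, norm_mul, norm_cis, mul_one, Complex.norm_real, Real.norm_eq_abs,
      abs_lt, hn]
    constructor <;> linarith
  have hQ : IsPreconnected ((fun r => u' + cis r) '' ball θ η) := by
    refine IsPreconnected.image ?_ _ (continuous_const.add continuous_cis).continuousOn
    rw [Real.ball_eq_Ioo]
    exact isPreconnected_Ioo
  refine h.wlemma (i := t) hQ ?_ (z := w) ⟨r, ?_, rfl⟩ ⟨θ + e, ?_, rfl⟩ ha h1 hw
  · rintro _ ⟨r', hr', rfl⟩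
    exact hsub ⟨hball hr', dist_add_cis u' r'⟩
  · rw [mem_ball, Real.dist_eq]; exact hr
  · rw [mem_ball, Real.dist_eq]
    simpa [abs_of_pos he0] using heη

/-- the closed unit disc about `v` touches the circle of radius two about `u'` only at the
antipodal point -/
theorem l2_eq_antipode {v u' w : ℂ} (hv : dist v u' = 1) (hw : dist w v ≤ 1) (hw2 : 2 ≤ dist w u') :
    w = 2 * v - u' := by
  have h1 : dist w u' ≤ dist w v + dist v u' := dist_triangle _ _ _
  have hwv : dist w v = 1 := by linarith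
  have hwu : dist w u' = 2 := by linarith
  have a1 := sq_dist w v
  have a2 := sq_dist v u'
  have a3 := sq_dist w u'
  rw [hwv] at a1
  rw [hv] at a2
  rw [hwu] at a3
  have key : (w.re - 2 * v.re + u'.re) ^ 2 + (w.im - 2 * v.im + u'.im) ^ 2 = 0 := by nlinarith
  have h5 : w.re - 2 * v.re + u'.re = 0 := by
    nlinarith [sq_nonneg (w.re - 2 * v.re + u'.re), sq_nonneg (w.im - 2 * v.im + u'.im)]
  have h6 : w.im - 2 * v.im + u'.im = 0 := by
    nlinarith [sq_nonneg (w.re - 2 * v.re + u'.re), sq_nonneg (w.im - 2 * v.im + u'.im)]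
  apply Complex.ext
  · simp; linarith
  · simp; linarith

/-- **Lens lemma.** `u, u'` antipodal on the unit circle about `v`, all colours of `v` except
possibly `t` are colours of `u'`, `|K(u')| ≤ 3`: then the points of `F_t` in the closed unit disc
about `v` which are near `u` are equal to `u`. -/
theorem Mx.lens (h : Mx U) {u u' v : ℂ} {t : Fin k} (hu' : u' ∈ XX U)
    (h3' : (Pal U u').ncard ≤ 3) (hv : dist v u' = 1) (huv : u + u' = 2 * v)
    (ht : Pal U v ⊆ insert t (Pal U u')) :
    ∀ᶠ w in 𝓝 u, t ∈ Pal U w → dist w v ≤ 1 → w = u := by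
  have hu : 2 * v - u' = u := by rw [← huv]; ring
  have := h.lens0 hv (h.lemmaX0 hu' h3' ht)
  rw [hu] at this
  filter_upwards [this] with w hw htw hwv
  rw [← hu]
  exact l2_eq_antipode hv hwv (hw htw)

/-- ball form of the lens lemma -/
theorem Mx.lens_ball (h : Mx U) {u u' v : ℂ} {t : Fin k} (hu' : u' ∈ XX U)
    (h3' : (Pal U u').ncard ≤ 3) (hv : dist v u' = 1) (huv : u + u' = 2 * v)
    (ht : Pal U v ⊆ insert t (Pal U u')) :
    ∃ r > 0, ∀ w, dist w u < r → t ∈ Pal U w → dist w v ≤ 1 → w = u :=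
  Metric.eventually_nhds_iff.1 (h.lens hu' h3' hv huv ht) |>.imp
    fun _ hr => ⟨hr.1, fun _ hw => hr.2 hw⟩

end Vale.Agent.P032.Six
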