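import Vale.Agent.P032.S5.H483.Comp
import Vale.Agent.P032.Six.Star
import Vale.Agent.P032.S5.State

/-!
# P032: the geometric input `GeoI` of the state calculus for the closed cover `Ks`
-/

open Set Filter Topology Metric

noncomputable section

namespace Vale.Agent.P032.Six

theorem Mx.red_Kst {k : ℕ} {U : Fin k → Set ℂ} (h : Mx U) : Red U (Kst U) where
  on _ hx := Kst_XX hx
  off _ hx _ hi := h.Kst_mem hx hi
  ne x := h.Kst_nonempty x

theorem Mx.red_Ks {k : ℕ} {U : Fin k → Set ℂ} (h : Mx U) :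
    Red U (fun x => (Ks U x : Set (Fin k))) := by
  simp only [coe_Ks]
  exact h.red_Kst

variable {U : Fin 6 → Set ℂ} {B D E : Set ℂ}

/-- the general form: any reduced palette, with the distance condition as hypothesis -/
theorem Mx.geoI_of (h : Mx U) {K : ℂ → Set (Fin 6)} (hK : Red U K)
    (hBD : ∀ x ∈ B, closedBall x 1 ⊆ D) (h3 : ∀ x ∈ D, (K x).ncard ≤ 3)
    (hZ : ∀ x ∈ D, ∀ q ∈ XX U, dist q x = 1 → (Pal U q).ncard ≤ 3) :
    Vale.Agent.P032.S5.GeoI K B D where
  sub := hBD
  three := h3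
  comp := fun u hu u' hu' hu3 hc => by
    refine h.comp_le hK ?_ ?_ hu3.le (h3 u' hu') (hZ u hu)
    · intro i
      rw [hc]
      exact em _
    · intro i hi hi'
      rw [hc] at hi'
      exact hi' hi
  lens := fun v _ u u' hv3 hu3 hc hne hne' hd hd' huu => by
    have hu3' : (K u').ncard = 3 := by
      have := Set.ncard_add_ncard_compl (K u)
      rw [Nat.card_eq_fintype_card, Fintype.card_fin] at this
      rw [hc]
      omega
    -- `v` is the midpoint
    have huv : u + u' = 2 * v := by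
      have h1 : ‖(u - v) - (u' - v)‖ = 2 := by
        rw [sub_sub_sub_cancel_right, ← dist_eq_norm]
        exact huu
      have h2 : ‖u - v‖ = 1 := by rw [← dist_eq_norm]; exact hd
      have h3 : ‖u' - v‖ = 1 := by rw [← dist_eq_norm]; exact hd'
      have h4 := parallelogram_law_with_norm ℝ (u - v) (u' - v)
      rw [h1, h2, h3] at h4
      have h5 : ‖(u - v) + (u' - v)‖ = 0 := by nlinarith [norm_nonneg ((u - v) + (u' - v))]
      have h6 := norm_eq_zero.1 h5
      linear_combination h6
    refine h.lens_or' hK hd huv ?_ ?_ hu3 hu3' hv3 (Ne.symm hne) (Ne.symm hne')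
    · intro i
      rw [hc]
      exact em _
    · intro i hi hi'
      rw [hc] at hi'
      exact hi' hi

/-- **Geometric input of the state calculus** for the closed cover: at most three colours at every
point of `XX U ∩ E`, where `E` contains the closed unit discs about the points of `D`. -/
theorem Mx.geoI_Kst (h : Mx U) (hBD : ∀ x ∈ B, closedBall x 1 ⊆ D)
    (hDE : ∀ x ∈ D, closedBall x 1 ⊆ E)
    (hZ : ∀ x ∈ XX U, x ∈ E → (Pal U x).ncard ≤ 3) :
    Vale.Agent.P032.S5.GeoI (Kst U) B D := by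
  refine h.geoI_of h.red_Kst hBD (fun x hx => ?_) fun x hx q hq hqx => ?_
  · exact h.Kst_le_three fun hX => hZ x hX (hDE x hx (by simp))
  · exact hZ q hq (hDE x hx (by rw [mem_closedBall]; exact hqx.le))

theorem Mx.geoI_Ks (h : Mx U) (hBD : ∀ x ∈ B, closedBall x 1 ⊆ D)
    (hDE : ∀ x ∈ D, closedBall x 1 ⊆ E)
    (hZ : ∀ x ∈ XX U, x ∈ E → (Pal U x).ncard ≤ 3) :
    Vale.Agent.P032.S5.GeoI (fun x => (Ks U x : Set (Fin 6))) B D := by
  simp only [coe_Ks]
  exact h.geoI_Kst hBD hDE hZ

/-- concrete balls: `≤ 3` colours on `XX U ∩ closedBall v 3` -/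
theorem Mx.geoI_ball (h : Mx U) {v : ℂ} {r : ℝ}
    (hZ : ∀ x ∈ XX U, dist x v ≤ r + 2 → (Pal U x).ncard ≤ 3) :
    Vale.Agent.P032.S5.GeoI (Kst U) (closedBall v r) (closedBall v (r + 1)) := by
  refine h.geoI_Kst (E := closedBall v (r + 2)) (fun x hx y hy => ?_) (fun x hx y hy => ?_)
    fun x hX hx => hZ x hX hx
  · rw [mem_closedBall] at *
    linarith [dist_triangle y x v]
  · rw [mem_closedBall] at *
    linarith [dist_triangle y x v]

end Vale.Agent.P032.Six
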