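import Vale.Agent.P032.S5.H483.IrrZ

/-!
# P032: `M z ≠ ∅` for a clean essential point

Frame `Irr U T`, six colours, `4 ≤ |T z|`, `|T y| ≤ 3` for every `y ∈ S(z)`: then some `y ∈ S(z)` has
`T y ⊆ T z` (statement [8] in the clean case).
-/

open Set Filter Topology Metric

noncomputable section

namespace Vale.Agent.P032.Six

variable {U : Fin 6 → Set ℂ} {T : ℂ → Set (Fin 6)}

/-- **[8]**, clean case -/
theorem Irr.exists_sub_of_clean (h : Irr U T) {z : ℂ} (h4 : 4 ≤ (T z).ncard)
    (h3 : ∀ y, dist y z = 1 → (T y).ncard ≤ 3) : ∃ y, dist y z = 1 ∧ T y ⊆ T z := by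
  by_contra hcon
  push Not at hcon
  -- two colours `e`, `f` containing the complement of `T z`
  obtain ⟨e, f, hef⟩ : ∃ e f : Fin 6, ∀ i, i ∉ T z → i = e ∨ i = f := by
    have hc : (T z)ᶜ.ncard ≤ 2 := by
      have := Set.ncard_add_ncard_compl (T z)
      simp only [Nat.card_eq_fintype_card, Fintype.card_fin] at this
      omega
    by_cases h0 : (T z)ᶜ.ncard ≤ 1
    · rcases (Set.ncard_le_one_iff_eq (Set.toFinite _)).1 h0 with h1 | ⟨a, h1⟩
      · refine ⟨0, 0, fun i hi => ?_⟩
        have : i ∈ (T z)ᶜ := hi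
        rw [h1] at this
        exact absurd this (by simp)
      · refine ⟨a, a, fun i hi => ?_⟩
        have : i ∈ (T z)ᶜ := hi
        rw [h1] at this
        exact Or.inl this
    · obtain ⟨a, b, -, h1⟩ := Set.ncard_eq_two.1 (show (T z)ᶜ.ncard = 2 by omega)
      refine ⟨a, b, fun i hi => ?_⟩
      have : i ∈ (T z)ᶜ := hi
      rw [h1] at this
      exact this
  have hcov : ∀ y, dist y z = 1 → ∃ i ∈ T y, i ∉ T z ∧ (i = e ∨ i = f) := by
    intro y hy
    obtain ⟨i, hi, hi'⟩ := not_subset.1 (hcon y hy)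
    exact ⟨i, hi, hi', hef i hi'⟩
  -- one colour only on an arc: it is absent at distance one
  have key : ∀ i j : Fin 6, (∀ t, t ∉ T z → t = i ∨ t = j) → ∀ y, dist y z = 1 → j ∉ T y →
      ∀ p, dist p z = 1 → dist p y = 1 → i ∉ T p := by
    intro i j hij y hy hj p hp hpy hip
    have hev : ∀ᶠ q in 𝓝[sphere z 1] y, i ∈ Pal U q := by
      filter_upwards [mem_nhdsWithin_of_mem_nhds (h.nhd y), self_mem_nhdsWithin] with q h1 h2
      obtain ⟨t, ht, ht'⟩ := not_subset.1 (hcon q h2)
      rcases hij t ht' with rfl | rfl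
      · exact h.sub q ht
      · exact absurd (h1 ht) hj
    rcases h.mx.partner_line hy hev (by rw [dist_comm]; exact hpy) (h.sub p hip) with h1 | h1
    · rw [h1, dist_self] at hp; exact zero_ne_one hp
    · have h2 : p - z = 2 * (y - z) := by linear_combination h1
      have h5 : dist p z = 2 := by
        rw [dist_eq_norm, h2, norm_mul, ← dist_eq_norm, hy]; norm_num
      rw [h5] at hp; norm_num at hp
  have hef' : ∀ t, t ∉ T z → t = f ∨ t = e := fun t ht => (hef t ht).symm
  -- `e` and `f` are not together on the circle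
  have hdisj : ∀ y, dist y z = 1 → e ∈ T y → f ∈ T y → e ≠ f → False := by
    intro y hy hey hfy hne
    obtain ⟨p, hp, hpy⟩ := exists_sixty hy
    have hep : e ∈ T p := by
      by_contra hcon2
      exact key f e hef' p hp hcon2 y hy (by rw [dist_comm]; exact hpy) hfy
    have hfp : f ∈ T p := by
      by_contra hcon2
      exact key e f hef p hp hcon2 y hy (by rw [dist_comm]; exact hpy) hey
    obtain ⟨j, hj, hjy⟩ := h.not_sub' hpy (h3 y hy)
    have hTp : T p ⊆ insert j (T y) := by
      intro t ht
      by_contra hcon2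
      simp only [mem_insert_iff, not_or] at hcon2
      have h6 : ({e, f, j, t} : Set (Fin 6)).ncard = 4 := by
        have e1 : f ≠ j := fun h => hjy (h ▸ hfy)
        have e2 : f ≠ t := fun h => hcon2.2 (h ▸ hfy)
        have e3 : e ≠ j := fun h => hjy (h ▸ hey)
        have e4 : e ≠ t := fun h => hcon2.2 (h ▸ hey)
        have e5 : j ≠ t := fun h => hcon2.1 h.symm
        rw [Set.ncard_insert_of_notMem (by simp [hne, e3, e4]),
          Set.ncard_insert_of_notMem (by simp [e1, e2]), Set.ncard_pair e5]
      have h7 : ({e, f, j, t} : Set (Fin 6)) ⊆ T p := by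
        rintro i (rfl | rfl | rfl | rfl) <;> assumption
      have h8 := Set.ncard_le_ncard h7 (Set.toFinite _)
      have h9 := h3 p hp
      omega
    have hjz : j ∈ T z := by
      by_contra hcon2
      rcases hef j hcon2 with rfl | rfl
      · exact hjy hey
      · exact hjy hfy
    rcases h.lemmaX hpy (h3 y hy) hTp hp (h.sub z hjz) with h1 | h1
    · rw [h1, dist_self] at hy; exact zero_ne_one hy
    · have h2 : z - y = 2 * (p - y) := by linear_combination h1
      have h5 : dist z y = 2 := by
        rw [dist_eq_norm, h2, norm_mul, ← dist_eq_norm, hpy]; norm_num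
      rw [dist_comm, h5] at hy; norm_num at hy
  obtain ⟨y, hy⟩ : ∃ y, dist y z = 1 := ⟨z + cis 0, dist_add_cis z 0⟩
  obtain ⟨p, hp, hpy⟩ := exists_sixty hy
  have hyp : dist y p = 1 := by rw [dist_comm]; exact hpy
  -- both colours occur
  have hboth : ∃ u v, dist u z = 1 ∧ dist v z = 1 ∧ e ∈ T u ∧ f ∈ T v ∧ e ≠ f := by
    obtain ⟨i, hi, hi1, hi2⟩ := hcov y hy
    obtain ⟨j, hj, hj1, hj2⟩ := hcov p hp
    by_cases h0 : e = f
    · exfalso
      subst h0
      have hie : i = e := by rcases hi2 with h | h <;> exact h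
      have hje : j = e := by rcases hj2 with h | h <;> exact h
      subst hie
      subst hje
      -- the colour is on the whole circle
      have hev : ∀ᶠ q in 𝓝[sphere z 1] y, j ∈ Pal U q := by
        filter_upwards [self_mem_nhdsWithin] with q hq
        obtain ⟨t, ht, ht1, ht2⟩ := hcov q hq
        have : t = j := by rcases ht2 with h | h <;> exact h
        exact h.sub q (this ▸ ht)
      rcases h.mx.partner_line hy hev hyp (h.sub p hj) with h1 | h1
      · rw [h1, dist_self] at hp; exact zero_ne_one hp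
      · have h2 : p - z = 2 * (y - z) := by linear_combination h1
        have h5 : dist p z = 2 := by
          rw [dist_eq_norm, h2, norm_mul, ← dist_eq_norm, hy]; norm_num
        rw [h5] at hp; norm_num at hp
    · rcases hi2 with rfl | rfl
      · rcases hj2 with rfl | rfl
        · exact absurd hj (key _ _ hef y hy (fun hf => hdisj y hy hi hf h0) p hp hpy)
        · exact ⟨y, p, hy, hp, hi, hj, h0⟩
      · rcases hj2 with rfl | rfl
        · exact ⟨p, y, hp, hy, hj, hi, h0⟩
        · exact absurd hj (key _ _ hef' y hy (fun he => hdisj y hy he hi h0) p hp hpy)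
  obtain ⟨u, v, hu, hv, heu, hfv, hne⟩ := hboth
  obtain ⟨q, hq, hqe, hqf⟩ := isPreconnected_closed_iff.1 (isPreconnected_circle z)
    {x | e ∈ T x} {x | f ∈ T x} (h.closed e) (h.closed f)
    (by
      intro q hq
      obtain ⟨t, ht, -, ht2⟩ := hcov q hq
      rcases ht2 with rfl | rfl
      · exact Or.inl ht
      · exact Or.inr ht)
    ⟨u, hu, heu⟩ ⟨v, hv, hfv⟩
  exact hdisj q hq hqe hqf hne

end Vale.Agent.P032.Six

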