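import Vale.Agent.P032.S5.H483.Lens

/-!
# P032, block (L-2) for reduced palettes

Everything is stated for an abstract reduced palette `K` (`Red U K`: equal to `Pal` on `XX`,
contained in the free colours off `XX`), so it applies to every version of the reduced palette.

* `Mx.comp_le` : points with complementary reduced palettes (at most three colours each) have
  distance at least two, if no point of `XX` on the unit circle about `u` has more than three colours;
* `Mx.comp_lt2` : more than two, if one of them is off `XX`;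
* `Mx.lens_or` : the lens lemma in the form used by the state calculus.
-/

open Set Filter Topology Metric

noncomputable section

namespace Vale.Agent.P032.Six

variable {k : ℕ} {U : Fin k → Set ℂ}

/-- `K` is a reduced palette of the family `U` -/
structure Red (U : Fin k → Set ℂ) (K : ℂ → Set (Fin k)) : Prop where
  on : ∀ x ∈ XX U, K x = Pal U x
  off : ∀ x ∉ XX U, ∀ i ∈ K x, x ∈ U i
  ne : ∀ x, (K x).Nonempty

variable {K : ℂ → Set (Fin k)}

theorem Red.sub (hK : Red U K) (x : ℂ) : K x ⊆ Pal U x := by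
  by_cases hx : x ∈ XX U
  · rw [hK.on x hx]
  · exact fun i hi => subset_closure (hK.off x hx i hi)

theorem Red.disj (h : Mx U) (hK : Red U K) {x y : ℂ} (hxy : dist x y = 1) (hx : x ∉ XX U) :
    Disjoint (K x) (Pal U y) := by
  rw [Set.disjoint_left]
  intro i hi hi'
  exact h.notMem' (hK.off x hx i hi) hxy hi'

theorem Red.not_sub (h : Mx U) (hK : Red U K) {x y : ℂ} (hxy : dist y x = 1)
    (h3 : (K x).ncard ≤ 3) : ¬ Pal U y ⊆ K x := by
  intro hsub
  by_cases hx : x ∈ XX U
  · rw [hK.on x hx] at hsub h3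
    exact h.not_sub hx hxy h3 hsub
  · obtain ⟨i, hi⟩ := h.cover y
    exact Set.disjoint_left.1 (Red.disj h hK (by rw [dist_comm]; exact hxy) hx) (hsub hi) hi

/-- complementary reduced palettes: no common point of the circles if one centre is off `XX` -/
theorem Mx.comp_off (h : Mx U) (hK : Red U K) {u u' q : ℂ} (hc : ∀ i, i ∈ K u ∨ i ∈ K u')
    (h3 : (K u').ncard ≤ 3) (hu : u ∉ XX U) (hq : dist q u = 1) (hq' : dist q u' = 1) :
    False := by
  refine Red.not_sub h hK (x := u') (y := q) hq' h3 fun i hi => ?_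
  rcases hc i with h1 | h1
  · exact absurd hi (Set.disjoint_left.1 (Red.disj h hK (by rw [dist_comm]; exact hq) hu) h1)
  · exact h1

/-- **Distance-two rule** for the reduced palettes. -/
theorem Mx.comp_le (h : Mx U) (hK : Red U K) {u u' : ℂ} (hc : ∀ i, i ∈ K u ∨ i ∈ K u')
    (hd : ∀ i ∈ K u, i ∉ K u') (h3 : (K u).ncard ≤ 3) (h3' : (K u').ncard ≤ 3)
    (hZ : ∀ q ∈ XX U, dist q u = 1 → (Pal U q).ncard ≤ 3) : 2 ≤ dist u u' := by
  by_contra hlt
  push Not at hlt
  have hne : u ≠ u' := by
    rintro rfl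
    obtain ⟨i, hi⟩ := hK.ne u
    exact hd i hi hi
  obtain ⟨q, hq, hq', hne2⟩ := l2_exists_inter hlt hne
  by_cases hu : u ∈ XX U
  · by_cases hu' : u' ∈ XX U
    · rw [hK.on _ hu] at h3
      rw [hK.on _ hu'] at h3'
      simp only [hK.on _ hu, hK.on _ hu'] at hc hd
      obtain ⟨hqX, h4⟩ := h.four_le hu hu' h3 h3' hc hd hq hq' hne2
      have := hZ q hqX hq
      omega
    · exact h.comp_off hK (fun i => (hc i).symm) h3 hu' hq' hq
  · exact h.comp_off hK hc h3' hu hq hq'

/-- more than two if one of the points is off `XX` -/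
theorem Mx.comp_lt2 (h : Mx U) (hK : Red U K) {u u' : ℂ} (hc : ∀ i, i ∈ K u ∨ i ∈ K u')
    (hd : ∀ i ∈ K u, i ∉ K u') (h3 : (K u).ncard ≤ 3) (h3' : (K u').ncard ≤ 3)
    (hZ : ∀ q ∈ XX U, dist q u = 1 → (Pal U q).ncard ≤ 3) (hX : u ∉ XX U ∨ u' ∉ XX U) :
    2 < dist u u' := by
  refine lt_of_le_of_ne (h.comp_le hK hc hd h3 h3' hZ) fun h2 => ?_
  -- the midpoint
  have hq : dist ((u + u') / 2) u = 1 := by
    rw [dist_eq_norm] at h2 ⊢
    have : (u + u') / 2 - u = -((u - u') / 2) := by ring
    rw [this, norm_neg, norm_div, ← h2]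
    norm_num
  have hq' : dist ((u + u') / 2) u' = 1 := by
    rw [dist_eq_norm] at h2 ⊢
    have : (u + u') / 2 - u' = (u - u') / 2 := by ring
    rw [this, norm_div, ← h2]
    norm_num
  rcases hX with hu | hu
  · exact h.comp_off hK hc h3' hu hq hq'
  · exact h.comp_off hK (fun i => (hc i).symm) h3 hu hq' hq

/-- one half of the lens lemma: only the colour `t` of `v` may be missing at `u'` -/
theorem Mx.lens_half (h : Mx U) (hK : Red U K) {u u' v : ℂ} {t : Fin k} (hv : dist u v = 1)
    (huv : u + u' = 2 * v) (h3' : (K u').ncard ≤ 3) (hvX : v ∈ XX U) (hu'X : u' ∈ XX U)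
    (ht : K v ⊆ insert t (K u')) :
    ∀ᶠ w in 𝓝 u, t ∈ Pal U w → dist w v ≤ 1 → w = u := by
  have hv' : dist v u' = 1 := by
    have : v - u' = u - v := by linear_combination (-1 : ℂ) * huv
    rw [dist_eq_norm, this, ← dist_eq_norm]
    exact hv
  rw [hK.on _ hvX, hK.on _ hu'X] at ht
  rw [hK.on _ hu'X] at h3'
  exact h.lens hu'X h3' hv' huv ht

/-- **Lens lemma** (410 (d)): `u`, `u'` antipodal on the unit circle about `v`, with complementary
reduced 3-palettes, both different from the 3-palette of `v`: one of the colours of `u` is absent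
in the closed unit disc about `v` near `u`, except at `u` itself, or the same holds for `u'`. -/
theorem Mx.lens_or (h : Mx U) (hK : Red U K) {u u' v : ℂ} (hv : dist u v = 1) (huv : u + u' = 2 * v)
    (hc : ∀ i, i ∈ K u ∨ i ∈ K u') (hd : ∀ i ∈ K u, i ∉ K u')
    (h3 : (K u).ncard = 3) (h3' : (K u').ncard = 3) (h3v : (K v).ncard = 3)
    (hne : K v ≠ K u) (hne' : K v ≠ K u') :
    (∃ t ∈ K u, ∀ᶠ w in 𝓝 u, t ∈ Pal U w → dist w v ≤ 1 → w = u) ∨
    (∃ t ∈ K u', ∀ᶠ w in 𝓝 u', t ∈ Pal U w → dist w v ≤ 1 → w = u') := by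
  have hv' : dist u' v = 1 := by
    have : u' - v = -(u - v) := by linear_combination huv
    rw [dist_eq_norm, this, norm_neg, ← dist_eq_norm]
    exact hv
  -- the palette of `v` meets both
  have hm : ∃ t ∈ K v, t ∈ K u := by
    by_contra hcon
    push Not at hcon
    have hsub : K v ⊆ K u' := fun i hi => (hc i).resolve_left (hcon i hi)
    exact hne' (Set.eq_of_subset_of_ncard_le hsub (by omega) (Set.toFinite _))
  have hm' : ∃ t ∈ K v, t ∈ K u' := by
    by_contra hcon
    push Not at hcon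
    have hsub : K v ⊆ K u := fun i hi => (hc i).resolve_right (hcon i hi)
    exact hne (Set.eq_of_subset_of_ncard_le hsub (by omega) (Set.toFinite _))
  obtain ⟨t, htv, htu⟩ := hm
  obtain ⟨t', htv', htu'⟩ := hm'
  have hvX : v ∈ XX U := by
    by_contra hX
    exact Set.disjoint_left.1 (Red.disj h hK (by rw [dist_comm]; exact hv) hX) htv (hK.sub u htu)
  have huX : u ∈ XX U := by
    by_contra hX
    exact Set.disjoint_left.1 (Red.disj h hK hv hX) htu (hK.sub v htv)
  have hu'X : u' ∈ XX U := by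
    by_contra hX
    exact Set.disjoint_left.1 (Red.disj h hK hv' hX) htu' (hK.sub v htv')
  by_cases h1 : K v ⊆ insert t (K u')
  · left
    exact ⟨t, htu, h.lens_half hK hv huv h3'.le hvX hu'X h1⟩
  · -- two colours of `v` at `u`, hence only one at `u'`
    right
    obtain ⟨s, hsv, hs⟩ := Set.not_subset.1 h1
    have hst : s ≠ t := fun e => hs (by rw [e]; exact mem_insert _ _)
    have hsu : s ∈ K u := (hc s).resolve_right fun e => hs (mem_insert_of_mem _ e)
    refine ⟨t', htu', ?_⟩
    have hts : t' ≠ t := fun e => hd t htu (e ▸ htu')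
    have htss : t' ≠ s := fun e => hd s hsu (e ▸ htu')
    have hall : K v = {t, s, t'} := by
      refine (Set.eq_of_subset_of_ncard_le ?_ ?_ (Set.toFinite _)).symm
      · intro m hm
        simp only [mem_insert_iff, mem_singleton_iff] at hm
        rcases hm with rfl | rfl | rfl <;> assumption
      · rw [h3v, Set.ncard_eq_toFinset_card']
        have : ({t, s, t'} : Set (Fin k)).toFinset = ({t, s, t'} : Finset (Fin k)) := by
          ext; simp
        rw [this, Finset.card_insert_of_notMem (by simp [hst.symm, hts.symm]),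
          Finset.card_insert_of_notMem (by simp [htss.symm]), Finset.card_singleton]
    refine h.lens_half hK hv' (by rw [add_comm]; exact huv) h3.le hvX huX ?_
    rw [hall]
    intro m hm
    simp only [mem_insert_iff, mem_singleton_iff] at hm
    rcases hm with rfl | rfl | rfl
    · exact mem_insert_of_mem _ htu
    · exact mem_insert_of_mem _ hsu
    · exact mem_insert _ _

/-- filter form of `Mx.lens_or` for the reduced palettes -/
theorem Mx.lens_or' (h : Mx U) (hK : Red U K) {u u' v : ℂ} (hv : dist u v = 1) (huv : u + u' = 2 * v)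
    (hc : ∀ i, i ∈ K u ∨ i ∈ K u') (hd : ∀ i ∈ K u, i ∉ K u')
    (h3 : (K u).ncard = 3) (h3' : (K u').ncard = 3) (h3v : (K v).ncard = 3)
    (hne : K v ≠ K u) (hne' : K v ≠ K u') :
    (∃ t ∈ K u, ∀ᶠ w in 𝓝[closedBall v 1 \ {u}] u, t ∉ K w) ∨
    (∃ t ∈ K u', ∀ᶠ w in 𝓝[closedBall v 1 \ {u'}] u', t ∉ K w) := by
  rcases h.lens_or hK hv huv hc hd h3 h3' h3v hne hne' with ⟨t, ht, hw⟩ | ⟨t, ht, hw⟩
  · refine Or.inl ⟨t, ht, ?_⟩
    filter_upwards [mem_nhdsWithin_of_mem_nhds hw, self_mem_nhdsWithin] with w h1 h2 h4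
    exact h2.2 (h1 (hK.sub w h4) h2.1)
  · refine Or.inr ⟨t, ht, ?_⟩
    filter_upwards [mem_nhdsWithin_of_mem_nhds hw, self_mem_nhdsWithin] with w h1 h2 h4
    exact h2.2 (h1 (hK.sub w h4) h2.1)

end Vale.Agent.P032.Six
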